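import Mathlib
import Vale.Agent.P268.Hol
import Vale.Agent.P267.H757.Div

/-! # Germs of holomorphic functions of two variables: elementary facts (helper470) -/

open Set Filter Metric Topology

namespace Vale.Agent.P290.H470

/-- the model space -/
abbrev E2 : Type := Fin 2 → ℂ

/-- local parametrisation of a smooth curve -/
theorem exists_param {l : E2 → ℂ} {p : E2} (hl : AnalyticAt ℂ l p) (hp : l p = 0)
    (hd : fderiv ℂ l p ≠ 0) :
    ∃ (γ : ℂ → E2) (τ : E2 → ℂ), AnalyticAt ℂ γ 0 ∧ γ 0 = p ∧ AnalyticAt ℂ τ p ∧ τ p = 0 ∧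
      (∀ᶠ t in 𝓝 (0 : ℂ), l (γ t) = 0 ∧ τ (γ t) = t) ∧
      ∀ᶠ z in 𝓝 p, l z = 0 → γ (τ z) = z := by
  set L : E2 →L[ℂ] ℂ := fderiv ℂ l p with hL
  -- a complementary coordinate
  obtain ⟨M, hM⟩ : ∃ M : E2 →L[ℂ] ℂ, Function.Injective (L.prod M) := by
    have hLv : ∀ v : E2, L v = v 0 * L (Pi.single 0 1) + v 1 * L (Pi.single 1 1) := by
      intro v
      have : v = v 0 • (Pi.single 0 1 : E2) + v 1 • (Pi.single 1 1 : E2) := by
        ext i; fin_cases i <;> simp
      conv_lhs => rw [this]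
      simp [map_add, map_smul]
    by_cases h0 : L (Pi.single 0 1) = 0
    · have h1 : L (Pi.single 1 1) ≠ 0 := by
        intro h1
        apply hd
        ext v
        rw [hLv, h0, h1]; simp
      refine ⟨ContinuousLinearMap.proj 0, ?_⟩
      rw [injective_iff_map_eq_zero]
      intro v hv
      have hv1 : L v = 0 := congrArg Prod.fst hv
      have hv2 : v 0 = 0 := congrArg Prod.snd hv
      rw [hLv, hv2] at hv1
      have hv3 : v 1 = 0 := by
        simpa [h1] using hv1
      ext i; fin_cases i <;> simp [hv2, hv3]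
    · refine ⟨ContinuousLinearMap.proj 1, ?_⟩
      rw [injective_iff_map_eq_zero]
      intro v hv
      have hv1 : L v = 0 := congrArg Prod.fst hv
      have hv2 : v 1 = 0 := congrArg Prod.snd hv
      rw [hLv, hv2] at hv1
      have hv3 : v 0 = 0 := by
        simpa [h0] using hv1
      ext i; fin_cases i <;> simp [hv2, hv3]
  have hfin : Module.finrank ℂ E2 = Module.finrank ℂ (ℂ × ℂ) := by simp
  set A : E2 ≃ₗ[ℂ] (ℂ × ℂ) :=
    LinearMap.linearEquivOfInjective (L.prod M : E2 →ₗ[ℂ] ℂ × ℂ) hM hfin with hA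
  set A' : E2 ≃L[ℂ] (ℂ × ℂ) := A.toContinuousLinearEquiv with hA'
  have hA'c : (A' : E2 →L[ℂ] ℂ × ℂ) = L.prod M := by
    ext v <;> rfl
  set F : E2 → ℂ × ℂ := fun z => (l z, M (z - p)) with hF
  have hFan : AnalyticAt ℂ F p := by
    exact AnalyticAt.prod hl ((M.analyticAt _).comp (analyticAt_id.sub analyticAt_const))
  have hFd : HasFDerivAt F (L.prod M) p := by
    refine (hl.differentiableAt.hasFDerivAt).prodMk ?_
    have h1 : HasFDerivAt (fun z : E2 => z - p) (ContinuousLinearMap.id ℂ E2) p :=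
      (hasFDerivAt_id p).sub_const p
    have h2 : HasFDerivAt (fun z : E2 => M (z - p)) (M.comp (ContinuousLinearMap.id ℂ E2)) p :=
      HasFDerivAt.comp p (g := M) M.hasFDerivAt h1
    rwa [ContinuousLinearMap.comp_id] at h2
  have hFs : HasStrictFDerivAt F (A' : E2 →L[ℂ] ℂ × ℂ) p := by
    have := hFan.hasStrictFDerivAt
    rwa [hFd.fderiv, ← hA'c] at this
  set Φ := hFs.toOpenPartialHomeomorph F with hΦ
  have hΦc : (Φ : E2 → ℂ × ℂ) = F := hFs.toOpenPartialHomeomorph_coe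
  have hps : p ∈ Φ.source := hFs.mem_toOpenPartialHomeomorph_source
  have hFp : F p = (0, 0) := by simp [hF, hp]
  have hpt : ((0 : ℂ), (0 : ℂ)) ∈ Φ.target := by
    rw [← hFp]; exact hFs.image_mem_toOpenPartialHomeomorph_target
  have hsymm0 : Φ.symm (0, 0) = p := by
    rw [← hFp, ← hΦc]; exact Φ.left_inv hps
  have hsa : AnalyticAt ℂ Φ.symm (0, 0) := by
    have h1 : AnalyticAt ℂ Φ p := by rw [hΦc]; exact hFan
    have h2 : fderiv ℂ Φ p = (A' : E2 →L[ℂ] ℂ × ℂ) := by
      rw [hΦc, hFd.fderiv, hA'c]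
    have := Φ.analyticAt_symm' hps h1 h2
    rwa [hΦc, hFp] at this
  refine ⟨fun t => Φ.symm (0, t), fun z => M (z - p), ?_, hsymm0, ?_, by simp, ?_, ?_⟩
  · exact AnalyticAt.fun_comp (f := fun t : ℂ => ((0 : ℂ), t)) hsa
      (AnalyticAt.prod analyticAt_const analyticAt_id)
  · exact (M.analyticAt _).comp (analyticAt_id.sub analyticAt_const)
  · have h1 : ∀ᶠ t in 𝓝 (0 : ℂ), ((0 : ℂ), t) ∈ Φ.target := by
      have hc : ContinuousAt (fun t : ℂ => ((0 : ℂ), t)) 0 := by fun_prop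
      exact hc.preimage_mem_nhds (Φ.open_target.mem_nhds hpt)
    filter_upwards [h1] with t ht
    have h2 : F (Φ.symm (0, t)) = (0, t) := by
      rw [← hΦc]; exact Φ.right_inv ht
    exact ⟨congrArg Prod.fst h2, congrArg Prod.snd h2⟩
  · filter_upwards [Φ.open_source.mem_nhds hps] with z hz hlz
    have h2 : Φ.symm (F z) = z := by
      rw [← hΦc]; exact Φ.left_inv hz
    have h3 : F z = (0, M (z - p)) := by simp [hF, hlz]
    rw [h3] at h2
    exact h2

/-- the dichotomy along a smooth curve -/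
theorem curve_dichotomy {l g : E2 → ℂ} {p : E2} (hl : AnalyticAt ℂ l p) (hp : l p = 0)
    (hd : fderiv ℂ l p ≠ 0) (hg : AnalyticAt ℂ g p) :
    (∀ᶠ z in 𝓝 p, l z = 0 → g z = 0) ∨ (∀ᶠ z in 𝓝[≠] p, l z = 0 → g z ≠ 0) := by
  obtain ⟨γ, τ, hγ, hγ0, hτ, hτ0, h1, h2⟩ := exists_param hl hp hd
  have hgγ : AnalyticAt ℂ (fun t => g (γ t)) 0 := by
    refine AnalyticAt.fun_comp ?_ hγ
    rw [hγ0]; exact hg
  have hτc : Tendsto τ (𝓝 p) (𝓝 0) := by
    rw [← hτ0]; exact hτ.continuousAt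
  rcases hgγ.eventually_eq_zero_or_eventually_ne_zero with h | h
  · left
    filter_upwards [h2, hτc.eventually h] with z hz1 hz2 hlz
    rw [← hz1 hlz]; exact hz2
  · right
    rw [eventually_nhdsWithin_iff] at h ⊢
    filter_upwards [h2, hτc.eventually h] with z hz1 hz2 hzp hlz
    have hz3 := hz1 hlz
    rw [← hz3]
    apply hz2
    intro h0
    apply hzp
    rw [mem_singleton_iff] at h0 ⊢
    rw [← hz3, h0, hγ0]

/-- smooth curves have points near p different from p -/
theorem curve_frequently {l : E2 → ℂ} {p : E2} (hl : AnalyticAt ℂ l p) (hp : l p = 0)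
    (hd : fderiv ℂ l p ≠ 0) : ∃ᶠ z in 𝓝[≠] p, l z = 0 := by
  obtain ⟨γ, τ, hγ, hγ0, hτ, hτ0, h1, h2⟩ := exists_param hl hp hd
  have h3 : Tendsto γ (𝓝[≠] 0) (𝓝[≠] p) := by
    rw [tendsto_nhdsWithin_iff]
    refine ⟨?_, ?_⟩
    · have := hγ.continuousAt.tendsto
      rw [hγ0] at this
      exact this.mono_left nhdsWithin_le_nhds
    · rw [eventually_nhdsWithin_iff]
      filter_upwards [h1] with t ht ht0
      intro hcon
      rw [mem_singleton_iff] at hcon
      apply ht0
      rw [mem_singleton_iff, ← ht.2, hcon, hτ0]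
  have h4 : ∃ᶠ t in 𝓝[≠] (0 : ℂ), l (γ t) = 0 := by
    apply Eventually.frequently
    exact (h1.filter_mono nhdsWithin_le_nhds).mono fun t ht => ht.1
  exact h3.frequently h4

/-- Hartogs: isolated points are removable for holomorphic functions of two variables. -/
theorem hartogs {u : E2 → ℂ} {p : E2} (hu : ∀ᶠ z in 𝓝[≠] p, DifferentiableAt ℂ u z) :
    ∃ w : E2 → ℂ, AnalyticAt ℂ w p ∧ ∀ᶠ z in 𝓝[≠] p, w z = u z := by
  rw [eventually_nhdsWithin_iff] at hu
  obtain ⟨ε, hε, hball⟩ := Metric.eventually_nhds_iff_ball.1 hu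
  set v : E2 := Pi.single 0 1 with hv
  have hvn : ‖v‖ = 1 := by
    simp [hv, Pi.norm_single]
  set r : ℝ := ε / 2 with hr
  have hr0 : 0 < r := by positivity
  set W : Set E2 := ball p ε \ {p} with hW
  have hWo : IsOpen W := isOpen_ball.sdiff isClosed_singleton
  have hud : DifferentiableOn ℂ u W := fun z hz =>
    (hball z hz.1 hz.2).differentiableWithinAt
  have hBW : ∀ z ∈ ball p r, ∀ t ∈ sphere (0 : ℂ) r, z + t • v ∈ W := by
    intro z hz t ht
    rw [mem_sphere_zero_iff_norm] at ht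
    have hzn : ‖z - p‖ < r := by rwa [← dist_eq_norm]
    have htn : ‖t • v‖ = r := by rw [norm_smul, hvn, ht, mul_one]
    constructor
    · rw [mem_ball, dist_eq_norm]
      calc ‖z + t • v - p‖ = ‖(z - p) + t • v‖ := by congr 1; abel
        _ ≤ ‖z - p‖ + ‖t • v‖ := norm_add_le _ _
        _ < r + r := by linarith
        _ = ε := by rw [hr]; ring
    · intro hcon
      rw [mem_singleton_iff] at hcon
      have h1 : t • v = -(z - p) := by
        rw [← hcon]; abel
      have h2 : ‖t • v‖ = ‖z - p‖ := by rw [h1, norm_neg]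
      rw [htn] at h2
      linarith
  have hw := Vale.Agent.P267.H757.differentiableOn_slice (v := v) hr0 hWo hud
    (isOpen_ball (x := p) (ε := r)) hBW
  set w : E2 → ℂ := fun z => (2 * Real.pi * Complex.I)⁻¹ * ∮ t in C(0, r), t⁻¹ * u (z + t • v)
    with hwdef
  have hwd : DifferentiableOn ℂ w (ball p r) := hw.const_mul _
  refine ⟨w, ?_, ?_⟩
  · exact Vale.Agent.P268.analyticAt_of_differentiableOn isOpen_ball hwd (mem_ball_self hr0)
  -- equality off the line
  have hoff : ∀ z ∈ ball p r, z 1 ≠ p 1 → w z = u z := by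
    intro z hz hz1
    have hd : DifferentiableOn ℂ (fun t : ℂ => u (z + t • v)) (closedBall 0 r) := by
      intro t ht
      have hmem : z + t • v ∈ W := by
        constructor
        · rw [mem_ball, dist_eq_norm]
          have hzn : ‖z - p‖ < r := by rwa [← dist_eq_norm]
          have htn : ‖t • v‖ ≤ r := by
            rw [norm_smul, hvn, mul_one]
            simpa using ht
          calc ‖z + t • v - p‖ = ‖(z - p) + t • v‖ := by congr 1; abel
            _ ≤ ‖z - p‖ + ‖t • v‖ := norm_add_le _ _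
            _ < r + r := by linarith
            _ = ε := by rw [hr]; ring
        · intro hcon
          rw [mem_singleton_iff] at hcon
          apply hz1
          have := congrFun hcon 1
          simpa [hv] using this
      apply DifferentiableAt.differentiableWithinAt
      have h1 : DifferentiableAt ℂ (fun t : ℂ => z + t • v) t := by fun_prop
      exact DifferentiableAt.comp t (hud.differentiableAt (hWo.mem_nhds hmem)) h1
    have h2 := hd.circleIntegral_sub_inv_smul (w := 0) (mem_ball_self hr0)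
    simp only [sub_zero, smul_eq_mul, zero_smul, add_zero] at h2
    rw [hwdef]
    simp only
    rw [h2, ← mul_assoc, inv_mul_cancel₀, one_mul]
    simp [Real.pi_ne_zero]
  rw [eventually_nhdsWithin_iff]
  filter_upwards [isOpen_ball.mem_nhds (mem_ball_self hr0)] with z hz hzp
  have hzW : z ∈ W := ⟨ball_subset_ball (by linarith) hz, hzp⟩
  by_contra hne
  have hcw : ContinuousAt w z := (hwd.differentiableAt (isOpen_ball.mem_nhds hz)).continuousAt
  have hcu : ContinuousAt u z := (hud.differentiableAt (hWo.mem_nhds hzW)).continuousAt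
  have hev : ∀ᶠ y in 𝓝 z, w y - u y ≠ 0 :=
    (hcw.sub hcu).eventually_ne (sub_ne_zero.2 hne)
  have hcγ : Tendsto (fun t : ℂ => z + t • (Pi.single 1 1 : E2)) (𝓝[≠] 0) (𝓝 z) := by
    have h1 : Continuous (fun t : ℂ => z + t • (Pi.single 1 1 : E2)) := by fun_prop
    have h2 := h1.tendsto 0
    simp only [zero_smul, add_zero] at h2
    exact h2.mono_left nhdsWithin_le_nhds
  have hev2 : ∀ᶠ y in 𝓝 z, y ∈ ball p r := isOpen_ball.mem_nhds hz
  have hev3 : ∀ᶠ t in 𝓝[≠] (0 : ℂ), (z + t • (Pi.single 1 1 : E2)) 1 ≠ p 1 := by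
    have hne1 : ∀ᶠ t in 𝓝[≠] (0 : ℂ), t ≠ p 1 - z 1 := by
      by_cases h0 : p 1 - z 1 = 0
      · rw [h0]; exact eventually_mem_nhdsWithin
      · have h9 : ∀ᶠ t in 𝓝 (0 : ℂ), t ≠ p 1 - z 1 := isOpen_ne.mem_nhds (Ne.symm h0)
        exact h9.filter_mono nhdsWithin_le_nhds
    filter_upwards [hne1] with t ht hcon
    apply ht
    have : z 1 + t = p 1 := by simpa using hcon
    rw [← this]; ring
  obtain ⟨t, ⟨ht1, ht2⟩, ht3⟩ := ((hcγ.eventually (hev.and hev2)).and hev3).exists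
  exact ht1 (sub_eq_zero.2 (hoff _ ht2 ht3))

/-- Zeros of holomorphic functions of two variables are not isolated. -/
theorem not_isolated {F : E2 → ℂ} {p : E2} (hF : AnalyticAt ℂ F p) (hp : F p = 0) :
    ¬ ∀ᶠ z in 𝓝[≠] p, F z ≠ 0 := by
  intro hcon
  have h1 : ∀ᶠ z in 𝓝[≠] p, DifferentiableAt ℂ (fun z => (F z)⁻¹) z := by
    have h2 : ∀ᶠ z in 𝓝[≠] p, AnalyticAt ℂ F z :=
      hF.eventually_analyticAt.filter_mono nhdsWithin_le_nhds
    filter_upwards [h2, hcon] with z hz1 hz2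
    exact hz1.differentiableAt.inv hz2
  obtain ⟨w, hw, hw2⟩ := hartogs h1
  have h3 : ∀ᶠ z in 𝓝[≠] p, w z * F z = 1 := by
    filter_upwards [hw2, hcon] with z hz1 hz2
    rw [hz1, inv_mul_cancel₀ hz2]
  have h4 : Tendsto (fun z => w z * F z) (𝓝[≠] p) (𝓝 (w p * F p)) :=
    ((hw.continuousAt.mul hF.continuousAt).tendsto).mono_left nhdsWithin_le_nhds
  have h5 : Tendsto (fun z => w z * F z) (𝓝[≠] p) (𝓝 1) :=
    tendsto_const_nhds.congr' (h3.mono fun z hz => hz.symm)
  have h6 := tendsto_nhds_unique h4 h5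
  rw [hp, mul_zero] at h6
  exact zero_ne_one h6

/-- If `F G = u q ^ m` with a coordinate `q` and a unit `u`, and `F p = 0`, then `F` vanishes on
`{q = 0}`. -/
theorem vanish_of_mul {F G q u : E2 → ℂ} {p : E2} {m : ℕ} (hF : AnalyticAt ℂ F p)
    (hq : AnalyticAt ℂ q p) (hqp : q p = 0) (hd : fderiv ℂ q p ≠ 0) (hu : ContinuousAt u p)
    (hup : u p ≠ 0) (h : ∀ᶠ z in 𝓝 p, F z * G z = u z * q z ^ m) (hFp : F p = 0) :
    ∀ᶠ z in 𝓝 p, q z = 0 → F z = 0 := by
  rcases curve_dichotomy hq hqp hd hF with h1 | h1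
  · exact h1
  · exfalso
    apply not_isolated hF hFp
    have hu' : ∀ᶠ z in 𝓝[≠] p, u z ≠ 0 := (hu.eventually_ne hup).filter_mono nhdsWithin_le_nhds
    filter_upwards [h1, hu', h.filter_mono nhdsWithin_le_nhds] with z hz1 hz2 hz3 hcon
    rw [hcon, zero_mul] at hz3
    have h4 : q z ^ m = 0 := by
      rcases mul_eq_zero.1 hz3.symm with h5 | h5
      · exact absurd h5 hz2
      · exact h5
    have hm : m ≠ 0 := by rintro rfl; simp at h4
    exact hz1 ((pow_eq_zero_iff hm).1 h4) hcon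

/-- uniqueness of the multiplicity -/
theorem pow_unique {u u' l : E2 → ℂ} {p : E2} {m m' : ℕ} (hu : ContinuousAt u p) (hup : u p ≠ 0)
    (hu' : ContinuousAt u' p) (hup' : u' p ≠ 0) (hl : ContinuousAt l p) (hlp : l p = 0)
    (hne : ∃ᶠ z in 𝓝 p, l z ≠ 0) (h : ∀ᶠ z in 𝓝 p, u z * l z ^ m = u' z * l z ^ m') : m = m' := by
  wlog hmm : m ≤ m' generalizing u u' m m'
  · exact (this hu' hup' hu hup (h.mono fun z hz => hz.symm) (by omega)).symm
  by_contra hne'
  obtain ⟨k, rfl⟩ : ∃ k, m' = m + (k + 1) := ⟨m' - m - 1, by omega⟩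
  have h1 : ContinuousAt (fun z => u z - u' z * l z ^ (k + 1)) p :=
    hu.sub (hu'.mul (hl.pow _))
  have h2 : u p - u' p * l p ^ (k + 1) ≠ 0 := by
    rw [hlp]; simpa using hup
  have h3 := h1.eventually_ne h2
  obtain ⟨z, hz1, hz2, hz3⟩ := (hne.and_eventually (h3.and h)).exists
  apply hz2
  have h4 : (u z - u' z * l z ^ (k + 1)) * l z ^ m = 0 := by
    rw [sub_mul, hz3, pow_add]; ring
  exact (mul_eq_zero.1 h4).resolve_right (pow_ne_zero _ hz1)

end Vale.Agent.P290.H470
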