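import Mathlib

/-!
# P290 (helper470), F2-TRIV: a smooth retraction onto a compact fibre of a submersion

`E` is a real smooth manifold with charts in `V × H` whose first component is the map `p : E → V`.
-/

open scoped Manifold ContDiff Topology
open Set Filter

set_option linter.unusedSectionVars false

namespace Vale.Agent.P290.H470.Retr

variable {V H : Type*} [NormedAddCommGroup V] [NormedSpace ℝ V] [FiniteDimensional ℝ V]
  [NormedAddCommGroup H] [NormedSpace ℝ H] [FiniteDimensional ℝ H]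
  {E : Type*} [TopologicalSpace E] [ChartedSpace (V × H) E]

/-- a smooth retraction onto `p ⁻¹ t0` near the set `K` -/
def Good (p : E → V) (t0 : V) (K : Set E) : Prop :=
  ∃ (O : Set E) (r : E → E), IsOpen O ∧ K ⊆ O ∧
    (∀ y ∈ O, ContMDiffAt 𝓘(ℝ, V × H) 𝓘(ℝ, V × H) ∞ r y) ∧ (∀ y ∈ O, p (r y) = t0) ∧
    ∀ y ∈ O, p y = t0 → r y = y

theorem Good.mono {p : E → V} {t0 : V} {K K' : Set E} (h : Good (H := H) p t0 K) (hK : K' ⊆ K) :
    Good (H := H) p t0 K' := by
  obtain ⟨O, r, h1, h2, h3⟩ := h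
  exact ⟨O, r, h1, hK.trans h2, h3⟩

theorem good_empty (p : E → V) (t0 : V) : Good (H := H) p t0 (∅ : Set E) :=
  ⟨∅, id, isOpen_empty, subset_rfl, by simp, by simp, by simp⟩

variable [T2Space E] [SecondCountableTopology E] [IsManifold 𝓘(ℝ, V × H) ∞ E]

include V H in
omit [FiniteDimensional ℝ V] [FiniteDimensional ℝ H] [T2Space E] [SecondCountableTopology E]
  [IsManifold 𝓘(ℝ, V × H) ∞ E] [NormedSpace ℝ V] [NormedSpace ℝ H] in
theorem fst_symm {p : E → V} (hp : ∀ x, ∀ y ∈ (chartAt (V × H) x).source,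
    (chartAt (V × H) x y).1 = p y) (x : E) {q : V × H} (hq : q ∈ (chartAt (V × H) x).target) :
    p ((chartAt (V × H) x).symm q) = q.1 := by
  rw [← hp x _ ((chartAt (V × H) x).map_target hq), (chartAt (V × H) x).right_inv hq]

theorem Good.step {p : E → V} (hp : ∀ x, ∀ y ∈ (chartAt (V × H) x).source,
    (chartAt (V × H) x y).1 = p y) {t0 : V} {K : Set E} (hK : IsClosed K)
    (h : Good (H := H) p t0 K) (x : E) {K' : Set E} (hK' : K' ⊆ (chartAt (V × H) x).source)
    (hM : K' ⊆ p ⁻¹' {t0}) : Good (H := H) p t0 (K ∪ K') := by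
  classical
  obtain ⟨O, r, hO, hKO, hr, hr0, hr1⟩ := h
  have : LocallyCompactSpace E := ChartedSpace.locallyCompactSpace (V × H) E
  set ψ := chartAt (V × H) x with hψ
  obtain ⟨l, hl0, hl1, hl⟩ := exists_contMDiffMap_zero_one_nhds_of_isClosed (n := (⊤ : ℕ∞))
    𝓘(ℝ, V × H) hO.isClosed_compl hK (disjoint_compl_left_iff_subset.2 hKO)
  have hlO : ∀ y, y ∉ O → ∀ᶠ z in 𝓝 y, l z = 0 := fun y hy => hl0.filter_mono (nhds_le_nhdsSet hy)
  have hlK : ∀ y ∈ K, ∀ᶠ z in 𝓝 y, l z = 1 := fun y hy => hl1.filter_mono (nhds_le_nhdsSet hy)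
  set A : Set E := interior {y | l y = 1} with hA
  have hAl : ∀ y ∈ A, l y = 1 := fun y hy =>
    (interior_subset hy : y ∈ {y | l y = 1})
  have hAO : A ⊆ O := by
    intro y hy
    by_contra hyO
    have h1 := (hlO y hyO).self_of_nhds
    have h2 : l y = 1 := hAl y hy
    rw [h1] at h2
    exact zero_ne_one h2
  have hlc : ContMDiff 𝓘(ℝ, V × H) 𝓘(ℝ, ℝ) ∞ l := l.contMDiff
  -- the formula
  set c : E → V × H := fun y => (t0, (1 - l y) • (ψ y).2 + l y • (ψ (r y)).2) with hc
  set B1 : Set E := {y | y ∈ ψ.source ∧ y ∈ O ∧ r y ∈ ψ.source ∧ c y ∈ ψ.target} with hB1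
  set B2 : Set E := {y | y ∈ ψ.source ∧ y ∈ interior {z | l z = 0} ∧ (t0, (ψ y).2) ∈ ψ.target}
    with hB2
  have hψm : ψ ∈ IsManifold.maximalAtlas 𝓘(ℝ, V × H) ∞ E :=
    IsManifold.chart_mem_maximalAtlas x
  have hψat : ∀ y ∈ ψ.source, ContMDiffAt 𝓘(ℝ, V × H) 𝓘(ℝ, V × H) ∞ ψ y := fun y hy =>
    contMDiffAt_of_mem_maximalAtlas hψm hy
  have hψ2 : ∀ y ∈ ψ.source, ContMDiffAt 𝓘(ℝ, V × H) 𝓘(ℝ, H) ∞ (fun y => (ψ y).2) y := by
    intro y hy
    exact ContMDiffAt.comp (g := fun q : V × H => q.2) (I' := 𝓘(ℝ, V × H)) y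
      (contDiff_snd.contMDiff.contMDiffAt) (hψat y hy)
  have hcsm : ∀ y ∈ ψ.source, y ∈ O → r y ∈ ψ.source →
      ContMDiffAt 𝓘(ℝ, V × H) 𝓘(ℝ, V × H) ∞ c y := by
    intro y hy hyO hry
    have h1 := hψ2 y hy
    have h2 : ContMDiffAt 𝓘(ℝ, V × H) 𝓘(ℝ, H) ∞ (fun y => (ψ (r y)).2) y :=
      ContMDiffAt.comp (g := fun y => (ψ y).2) y (hψ2 (r y) hry) (hr y hyO)
    have h3 : ContMDiffAt 𝓘(ℝ, V × H) 𝓘(ℝ, ℝ) ∞ (fun y => 1 - l y) y :=
      contMDiffAt_const.sub (hlc y)
    have h4 : ContMDiffAt 𝓘(ℝ, V × H) 𝓘(ℝ, H) ∞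
        (fun y => (1 - l y) • (ψ y).2 + l y • (ψ (r y)).2) y :=
      (h3.smul h1).add ((hlc y).smul h2)
    exact contMDiffAt_const.prodMk_space h4
  have hc2sm : ∀ y ∈ ψ.source,
      ContMDiffAt 𝓘(ℝ, V × H) 𝓘(ℝ, V × H) ∞ (fun y => (t0, (ψ y).2)) y := by
    intro y hy
    exact contMDiffAt_const.prodMk_space (hψ2 y hy)
  have hB1o : IsOpen B1 := by
    rw [isOpen_iff_mem_nhds]
    rintro y ⟨h1, h2, h3, h4⟩
    have hc1 := (hcsm y h1 h2 h3).continuousAt
    have hc2 := (hr y h2).continuousAt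
    filter_upwards [ψ.open_source.mem_nhds h1, hO.mem_nhds h2,
      hc2 (ψ.open_source.mem_nhds h3), hc1 (ψ.open_target.mem_nhds h4)] with z z1 z2 z3 z4
    exact ⟨z1, z2, z3, z4⟩
  have hB2o : IsOpen B2 := by
    rw [isOpen_iff_mem_nhds]
    rintro y ⟨h1, h2, h3⟩
    have hc1 := (hc2sm y h1).continuousAt
    filter_upwards [ψ.open_source.mem_nhds h1, isOpen_interior.mem_nhds h2,
      hc1 (ψ.open_target.mem_nhds h3)] with z z1 z2 z3
    exact ⟨z1, z2, z3⟩
  set r' : E → E := fun y => if y ∈ A then r y else ψ.symm (c y) with hr'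
  have hl01 : ∀ y ∈ B2, l y = 0 := fun y hy =>
    (interior_subset hy.2.1 : y ∈ {z | l z = 0})
  have hcB2 : ∀ y ∈ B2, c y = (t0, (ψ y).2) := by
    intro y hy
    simp only [hc, hl01 y hy, sub_zero, one_smul, zero_smul, add_zero]
  have hr'B : ∀ y ∈ B1 ∪ B2, r' y = ψ.symm (c y) := by
    intro y hy
    by_cases hyA : y ∈ A
    · have hly : l y = 1 := hAl y hyA
      rcases hy with hy | hy
      · obtain ⟨h1, h2, h3, h4⟩ := hy
        have h5 : c y = ψ (r y) := by
          simp only [hc, hly, sub_self, zero_smul, one_smul, zero_add]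
          ext1
          · rw [hp x _ h3, hr0 y h2]
          · rfl
        simp only [hr', if_pos hyA]
        rw [h5, ψ.left_inv h3]
      · exfalso
        rw [hl01 y hy] at hly
        exact zero_ne_one hly
    · simp only [hr', if_neg hyA]
  have hcT : ∀ y ∈ B1 ∪ B2, c y ∈ ψ.target := by
    rintro y (hy | hy)
    · exact hy.2.2.2
    · rw [hcB2 y hy]; exact hy.2.2
  have hsymm : ∀ q ∈ ψ.target, ContMDiffAt 𝓘(ℝ, V × H) 𝓘(ℝ, V × H) ∞ ψ.symm q := fun q hq =>
    contMDiffAt_symm_of_mem_maximalAtlas hψm hq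
  refine ⟨A ∪ (B1 ∪ B2), r', isOpen_interior.union (hB1o.union hB2o), ?_, ?_, ?_, ?_⟩
  · rintro y (hy | hy)
    · left
      rw [hA, mem_interior_iff_mem_nhds]
      exact hlK y hy
    · right
      have hys := hK' hy
      have hy0 : p y = t0 := hM hy
      have hy1 : (t0, (ψ y).2) = ψ y := by
        ext1
        · rw [hp x _ hys, hy0]
        · rfl
      by_cases hyO : y ∈ O
      · left
        have h1 := hr1 y hyO hy0
        refine ⟨hys, hyO, by rw [h1]; exact hys, ?_⟩
        have : c y = ψ y := by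
          simp only [hc, h1, ← add_smul, sub_add_cancel, one_smul]
          exact hy1
        rw [this]
        exact ψ.map_source hys
      · right
        refine ⟨hys, mem_interior_iff_mem_nhds.2 (hlO y hyO), ?_⟩
        rw [hy1]
        exact ψ.map_source hys
  · rintro y (hy | hy)
    · have h1 : r' =ᶠ[𝓝 y] r := by
        filter_upwards [isOpen_interior.mem_nhds hy] with z hz
        have hz' : z ∈ A := hz
        simp only [hr', if_pos hz']
      exact (hr y (hAO hy)).congr_of_eventuallyEq h1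
    · have h1 : r' =ᶠ[𝓝 y] fun z => ψ.symm (c z) := by
        filter_upwards [(hB1o.union hB2o).mem_nhds hy] with z hz
        exact hr'B z hz
      refine ContMDiffAt.congr_of_eventuallyEq ?_ h1
      refine ContMDiffAt.comp (g := ψ.symm) y (hsymm _ (hcT y hy)) ?_
      rcases hy with hy | hy
      · exact hcsm y hy.1 hy.2.1 hy.2.2.1
      · have h2 : c =ᶠ[𝓝 y] fun z => (t0, (ψ z).2) := by
          filter_upwards [hB2o.mem_nhds hy] with z hz
          exact hcB2 z hz
        exact (hc2sm y hy.1).congr_of_eventuallyEq h2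
  · rintro y (hy | hy)
    · simp only [hr', if_pos hy]
      exact hr0 y (hAO hy)
    · rw [hr'B y hy, fst_symm hp x (hcT y hy)]
  · rintro y (hy | hy) hy0
    · simp only [hr', if_pos hy]
      exact hr1 y (hAO hy) hy0
    · rw [hr'B y hy]
      have hys : y ∈ ψ.source := by
        rcases hy with hy | hy
        · exact hy.1
        · exact hy.1
      have hy1 : (t0, (ψ y).2) = ψ y := by
        ext1
        · rw [hp x _ hys, hy0]
        · rfl
      have h1 : c y = ψ y := by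
        rcases hy with hy | hy
        · have h1 := hr1 y hy.2.1 hy0
          simp only [hc, h1, ← add_smul, sub_add_cancel, one_smul]
          exact hy1
        · rw [hcB2 y hy, hy1]
      rw [h1, ψ.left_inv hys]

/-- **Smooth retraction** onto the compact fibre `p ⁻¹ t0`. -/
theorem good_fibre {p : E → V} (hp : ∀ x, ∀ y ∈ (chartAt (V × H) x).source,
    (chartAt (V × H) x y).1 = p y) {t0 : V} (hM : IsCompact (p ⁻¹' {t0})) :
    Good (H := H) p t0 (p ⁻¹' {t0}) := by
  classical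
  have : LocallyCompactSpace E := ChartedSpace.locallyCompactSpace (V × H) E
  have h1 : ∀ x : E, ∃ K : Set E, IsCompact K ∧ x ∈ interior K ∧
      K ⊆ (chartAt (V × H) x).source := by
    intro x
    obtain ⟨K, hK1, hK2, hK3⟩ := local_compact_nhds
      ((chartAt (V × H) x).open_source.mem_nhds (mem_chart_source (V × H) x))
    exact ⟨K, hK3, mem_interior_iff_mem_nhds.2 hK1, hK2⟩
  choose K hK1 hK2 hK3 using h1
  obtain ⟨s, hs⟩ := hM.elim_finite_subcover (fun x => interior (K x))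
    (fun x => isOpen_interior) (fun x _ => mem_iUnion.2 ⟨x, hK2 x⟩)
  have h2 : ∀ s : Finset E, Good (H := H) p t0 (⋃ x ∈ s, (K x ∩ p ⁻¹' {t0})) := by
    intro s
    induction s using Finset.induction_on with
    | empty =>
      simp only [Finset.notMem_empty, iUnion_of_empty, iUnion_empty]
      exact good_empty p t0
    | insert a s ha ih =>
      rw [Finset.set_biUnion_insert, union_comm]
      refine Good.step hp ?_ ih a (inter_subset_left.trans (hK3 a)) inter_subset_right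
      exact (s.finite_toSet.isClosed_biUnion fun x _ => (hK1 x).isClosed.inter hM.isClosed)
  refine (h2 s).mono ?_
  intro y hy
  have := hs hy
  simp only [mem_iUnion] at this ⊢
  obtain ⟨x, hx, hx'⟩ := this
  exact ⟨x, hx, interior_subset hx', hy⟩

end Vale.Agent.P290.H470.Retr
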