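import Vale.Agent.P290.H470.Triv
import Vale.Agent.P290.H95.K3Fam
import Vale.Agent.P290.H686.XbDiffeo
import Vale.Agent.P290.H722.SmTrivDef

/-!
# P290 (helper470), F2-TRIV: smooth local triviality of holomorphic families of K3 surfaces
-/

open scoped Manifold ContDiff Topology
open Set Filter Vale.Agent.P290.All Vale.Agent.P290.H805 Vale.Agent.P290.H95

set_option linter.unusedSectionVars false

namespace Vale.Agent.P290.H470

section
variable {V : Type} [NormedAddCommGroup V] [NormedSpace ℂ V] {D : Set V}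
  {E : Type} [TopologicalSpace E]

/-- the local trivialisation of the family at `x`, as a chart with values in `V × ℂ²` -/
noncomputable def vch (hD : IsOpen D) (F : Family D E) (x : E) : OpenPartialHomeomorph E (V × C2) :=
  have : Nonempty D := ⟨F.p x⟩
  (F.triv x).trans ((hD.isOpenEmbedding_subtypeVal.toOpenPartialHomeomorph Subtype.val).prod
    (OpenPartialHomeomorph.refl C2))

variable (hD : IsOpen D) (F : Family D E)

theorem vch_apply (x y : E) : vch hD F x y = (((F.triv x y).1 : V), (F.triv x y).2) := rfl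

theorem vch_source (x : E) : (vch hD F x).source = (F.triv x).source := by
  ext y
  simp [vch]

theorem mem_vch_target (x : E) (t : D) (w : C2) :
    ((t : V), w) ∈ (vch hD F x).target ↔ (t, w) ∈ (F.triv x).target := by
  have : Nonempty D := ⟨F.p x⟩
  simp only [vch, OpenPartialHomeomorph.trans_target, OpenPartialHomeomorph.prod_target,
    OpenPartialHomeomorph.refl_target, mem_inter_iff, mem_prod, mem_univ, and_true, mem_preimage]
  constructor
  · rintro ⟨-, h⟩
    have h1 : (((hD.isOpenEmbedding_subtypeVal.toOpenPartialHomeomorph Subtype.val).prod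
      (OpenPartialHomeomorph.refl C2)).symm ((t : V), w)) = (t, w) := by
      refine Prod.ext ?_ rfl
      exact (hD.isOpenEmbedding_subtypeVal.toOpenPartialHomeomorph Subtype.val).left_inv
        (x := t) (by simp)
    rwa [h1] at h
  · intro h
    have h1 : (((hD.isOpenEmbedding_subtypeVal.toOpenPartialHomeomorph Subtype.val).prod
      (OpenPartialHomeomorph.refl C2)).symm ((t : V), w)) = (t, w) := by
      refine Prod.ext ?_ rfl
      exact (hD.isOpenEmbedding_subtypeVal.toOpenPartialHomeomorph Subtype.val).left_inv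
        (x := t) (by simp)
    rw [h1]
    refine ⟨?_, h⟩
    simp

theorem fst_mem_of_target {x : E} {q : V × C2} (h : q ∈ (vch hD F x).target) : q.1 ∈ D := by
  have h1 := (vch hD F x).right_inv h
  rw [← h1, vch_apply]
  exact (F.triv x _).1.2

theorem vch_symm (x : E) (t : D) (w : C2) (h : (t, w) ∈ (F.triv x).target) :
    (vch hD F x).symm ((t : V), w) = (F.triv x).symm (t, w) := by
  have h1 := (mem_vch_target hD F x t w).2 h
  have h2 : (F.triv x).symm (t, w) ∈ (vch hD F x).source := by
    rw [vch_source]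
    exact (F.triv x).map_target h
  rw [← (vch hD F x).left_inv h2]
  congr 1
  rw [vch_apply, (F.triv x).right_inv h]

/-- the charts -/
@[reducible] noncomputable def vCharted : ChartedSpace (V × C2) E where
  atlas := range (vch hD F)
  chartAt := vch hD F
  mem_chart_source x := by
    rw [vch_source]
    exact F.mem x
  chart_mem_atlas x := mem_range_self x

theorem vManifold (hol : ∀ (x x' : E) (t : D) (w : C2), (t, w) ∈ (F.triv x).target →
    (F.triv x).symm (t, w) ∈ (F.triv x').source → AnalyticAt ℂ (trn F x x') (t, w)) :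
    @IsManifold ℝ _ (V × C2) _ _ (V × C2) _ 𝓘(ℝ, V × C2) ∞ E _ (vCharted hD F) := by
  let _ := vCharted hD F
  refine isManifold_of_contDiffOn _ _ _ ?_
  rintro _ _ ⟨x, rfl⟩ ⟨x', rfl⟩
  rintro ⟨t, w⟩ hq
  simp only [mfld_simps] at hq ⊢
  obtain ⟨h1, h2⟩ := hq
  have ht : t ∈ D := fst_mem_of_target hD F h1
  have h1' : (⟨t, ht⟩, w) ∈ (F.triv x).target := (mem_vch_target hD F x ⟨t, ht⟩ w).1 h1
  have h2' : (F.triv x).symm (⟨t, ht⟩, w) ∈ (F.triv x').source := by
    rw [← vch_symm hD F x ⟨t, ht⟩ w h1', ← vch_source hD F x']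
    exact h2
  have h3 := hol x x' ⟨t, ht⟩ w h1' h2'
  refine ContDiffAt.contDiffWithinAt ?_
  have h4 : ContDiffAt ℝ ∞ (fun q : V × C2 => (q.1, trn F x x' q)) (t, w) := by
    have h5 : ContDiffAt ℂ ∞ (trn F x x') (t, w) := h3.contDiffAt
    exact contDiffAt_fst.prodMk (h5.restrict_scalars ℝ)
  refine h4.congr_of_eventuallyEq ?_
  filter_upwards [((vch hD F x).symm.trans (vch hD F x')).open_source.mem_nhds
    (show (t, w) ∈ ((vch hD F x).symm.trans (vch hD F x')).source from ⟨h1, h2⟩)] with q hq
  obtain ⟨s, u⟩ := q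
  obtain ⟨g1, g2⟩ := hq
  have hs : s ∈ D := fst_mem_of_target hD F g1
  have g1' : (⟨s, hs⟩, u) ∈ (F.triv x).target := (mem_vch_target hD F x ⟨s, hs⟩ u).1 g1
  have g2' : (F.triv x).symm (⟨s, hs⟩, u) ∈ (F.triv x').source := by
    rw [← vch_symm hD F x ⟨s, hs⟩ u g1', ← vch_source hD F x']
    exact g2
  simp only [Function.comp]
  rw [vch_symm hD F x ⟨s, hs⟩ u g1', vch_apply]
  refine Prod.ext ?_ ?_
  · change ((F.triv x' _).1 : V) = s
    rw [F.fst x' _ g2', F.p_symm x g1']
  · exact (trn_apply F x x' ⟨s, hs⟩ u).symm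

/-- real determinant of the fibre part of the transition maps -/
theorem trn_det_pos (hol : ∀ (x x' : E) (t : D) (w : C2), (t, w) ∈ (F.triv x).target →
    (F.triv x).symm (t, w) ∈ (F.triv x').source → AnalyticAt ℂ (trn F x x') (t, w)) (x x' : E)
    (t : D) (w : C2) (h1 : (t, w) ∈ (F.triv x).target)
    (h2 : (F.triv x).symm (t, w) ∈ (F.triv x').source) :
    DifferentiableAt ℝ (fun u : C2 => trn F x x' (t, u)) w ∧
      0 < (fderiv ℝ (fun u : C2 => trn F x x' (t, u)) w).det := by
  have key : ∀ x x' : E, ∀ w, (t, w) ∈ (F.triv x).target →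
      (F.triv x).symm (t, w) ∈ (F.triv x').source →
      DifferentiableAt ℂ (fun u : C2 => trn F x x' (t, u)) w := by
    intro x x' w h1 h2
    have h3 : DifferentiableAt ℂ (trn F x x') (t, w) := (hol x x' t w h1 h2).differentiableAt
    have h4 : DifferentiableAt ℂ (fun u : C2 => ((t : V), u)) w :=
      (hasFDerivAt_prodMk_right (𝕜 := ℂ) (t : V) w).differentiableAt
    exact DifferentiableAt.comp (g := trn F x x') w h3 h4
  have h3 := key x x' w h1 h2
  refine ⟨h3.restrictScalars ℝ, ?_⟩
  rw [h3.fderiv_restrictScalars ℝ]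
  have h5 := Vale.Agent.P267.H928.Int.det_real (fderiv ℂ (fun u : C2 => trn F x x' (t, u)) w)
  rw [h5, Complex.normSq_pos]
  -- the inverse transition
  set w' := trn F x x' (t, w) with hw'
  have h6 : (t, w') = F.triv x' ((F.triv x).symm (t, w)) := by
    refine Prod.ext ?_ ?_
    · change t = (F.triv x' _).1
      rw [F.fst x' _ h2, F.p_symm x h1]
    · exact trn_apply F x x' t w
  have h7 : (F.triv x').symm (t, w') = (F.triv x).symm (t, w) := by
    rw [h6, (F.triv x').left_inv h2]
  have h8 : (t, w') ∈ (F.triv x').target := by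
    rw [h6]
    exact (F.triv x').map_source h2
  have h9 : (F.triv x').symm (t, w') ∈ (F.triv x).source := by
    rw [h7]
    exact (F.triv x).map_target h1
  have h10 := key x' x w' h8 h9
  have h11 : ∀ᶠ u in 𝓝 w, trn F x' x (t, trn F x x' (t, u)) = u := by
    have g0 : ContinuousAt (fun u : C2 => (t, u)) w := continuousAt_const.prodMk continuousAt_id
    have g1 : ∀ᶠ u in 𝓝 w, (t, u) ∈ (F.triv x).target :=
      g0 ((F.triv x).open_target.mem_nhds h1)
    have g2 : ∀ᶠ u in 𝓝 w, (F.triv x).symm (t, u) ∈ (F.triv x').source := by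
      have g3 : ContinuousAt (fun u : C2 => (F.triv x).symm (t, u)) w :=
        ContinuousAt.comp (g := (F.triv x).symm) ((F.triv x).continuousAt_symm h1) g0
      exact g3 ((F.triv x').open_source.mem_nhds h2)
    filter_upwards [g1, g2] with u hu hu'
    have h6 : (t, trn F x x' (t, u)) = F.triv x' ((F.triv x).symm (t, u)) := by
      refine Prod.ext ?_ ?_
      · change t = (F.triv x' _).1
        rw [F.fst x' _ hu', F.p_symm x hu]
      · exact trn_apply F x x' t u
    rw [trn_apply, h6, (F.triv x').left_inv hu', (F.triv x).right_inv hu]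
  have h12 : (fderiv ℂ (fun u : C2 => trn F x' x (t, u)) w').comp
      (fderiv ℂ (fun u : C2 => trn F x x' (t, u)) w) = ContinuousLinearMap.id ℂ C2 := by
    rw [← fderiv_fun_comp w h10 h3]
    have h13 : (fun u => trn F x' x (t, trn F x x' (t, u))) =ᶠ[𝓝 w] fun u => u := h11
    rw [h13.fderiv_eq]
    exact fderiv_fun_id
  intro h0
  have h14 : LinearMap.det ((fderiv ℂ (fun u : C2 => trn F x' x (t, u)) w').comp
      (fderiv ℂ (fun u : C2 => trn F x x' (t, u)) w) : C2 →ₗ[ℂ] C2) = 1 := by
    rw [h12]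
    exact LinearMap.det_id
  have h15 := LinearMap.det_comp (fderiv ℂ (fun u : C2 => trn F x' x (t, u)) w' : C2 →ₗ[ℂ] C2)
    (fderiv ℂ (fun u : C2 => trn F x x' (t, u)) w : C2 →ₗ[ℂ] C2)
  rw [h0, mul_zero] at h15
  have h16 : (0 : ℂ) = 1 := h15.symm.trans h14
  exact zero_ne_one h16

end

section
variable {V : Type} [NormedAddCommGroup V] [NormedSpace ℂ V] [FiniteDimensional ℂ V] {D : Set V}
  {E : Type} [TopologicalSpace E] [T2Space E] [SecondCountableTopology E]

/-- `trn` after a local trivialisation -/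
theorem trn_eq (F : Family D E) (x x' : E) {y : E} (hy : y ∈ (F.triv x).source) :
    trn F x x' ((F.p y : V), (F.triv x y).2) = (F.triv x' y).2 := by
  rw [trn_apply, ← F.mk_eq x hy, (F.triv x).left_inv hy]

theorem det_compR (A B : C2 →L[ℝ] C2) : (A.comp B).det = A.det * B.det :=
  LinearMap.det_comp _ _

/-- **A holomorphic family of K3 surfaces is locally smoothly trivial.** -/
theorem exists_smTriv (hD : IsOpen D) (𝓕 : K3Family V D E) (t₀ : D) :
    Nonempty (H722.SmTriv 𝓕 t₀) := by
  classical
  let F := 𝓕.F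
  let _ := vCharted hD F
  have hman : IsManifold 𝓘(ℝ, V × C2) ∞ E := vManifold hD F 𝓕.hol
  have hch : ∀ x : E, chartAt (V × C2) x = vch hD F x := fun _ => rfl
  have hmax : ∀ x : E, vch hD F x ∈ IsManifold.maximalAtlas 𝓘(ℝ, V × C2) ∞ E := fun x =>
    IsManifold.chart_mem_maximalAtlas x
  set p : E → V := fun y => (F.p y : V) with hpdef
  have hp : ∀ x, ∀ y ∈ (chartAt (V × C2) x).source, (chartAt (V × C2) x y).1 = p y := by
    intro x y hy
    rw [hch, vch_source] at hy
    rw [hch, vch_apply, F.fst x y hy]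
  have hfib : ∀ t : D, p ⁻¹' {(t : V)} = range (Fib.val : Fib F t → E) := by
    intro t
    ext y
    constructor
    · intro hy
      exact ⟨⟨y, Subtype.ext hy⟩, rfl⟩
    · rintro ⟨x, rfl⟩
      change ((F.p x.val : D) : V) = t
      rw [x.prop]
  have hcpt : ∀ t : D, CompactSpace (Fib F t) := 𝓕.compact
  have hsc : ∀ t : D, SimplyConnectedSpace (Fib F t) := 𝓕.sc
  have hM : IsCompact (p ⁻¹' {(t₀ : V)}) := by
    have := hcpt t₀
    rw [hfib]
    exact isCompact_range continuous_val
  have hconn : ∀ t : D, IsConnected (p ⁻¹' {(t : V)}) := by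
    intro t
    have := hsc t
    rw [hfib]
    exact isConnected_range continuous_val
  have hcon : ∀ t : V, IsPreconnected (p ⁻¹' {t}) := by
    intro t
    by_cases ht : t ∈ D
    · exact (hconn ⟨t, ht⟩).isPreconnected
    · have : p ⁻¹' {t} = ∅ := by
        rw [eq_empty_iff_forall_notMem]
        intro y hy
        have hy' : (F.p y : V) = t := hy
        exact ht (hy' ▸ (F.p y).2)
      rw [this]
      exact isPreconnected_empty
  obtain ⟨N', r, Φ, hN'o, hN't, h1, h2, h3, h4, h5, h6⟩ := Retr.exists_triv hp hM (hconn t₀)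
    (fun O hO hMO => Retr.proper_of_connected hp hM (hconn t₀).nonempty hcon hO hMO)
  have hmp : ∀ m : Fib F t₀, p m.val = t₀ := fun m => congrArg Subtype.val m.prop
  have hΦc : ∀ t ∈ N', ∀ m : Fib F t₀,
      ContinuousAt (fun q : V × Fib F t₀ => Φ q.1 q.2.val) (t, m) := by
    intro t ht m
    have hm := F.mem m.val
    have g1 := (h5 t ht m.val (hmp m) m.val (mem_chart_source _ _)).continuousAt
    have g2 : ContinuousAt (fun q : V × Fib F t₀ => (q.1, (chartAt (V × C2) m.val q.2.val).2))
        (t, m) := by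
      refine continuousAt_fst.prodMk ?_
      have g3 : ContinuousAt (fun q : V × Fib F t₀ => q.2.val) (t, m) :=
        (continuous_val.comp continuous_snd).continuousAt
      have g4 : ContinuousAt (fun q : V × Fib F t₀ => chartAt (V × C2) m.val q.2.val) (t, m) :=
        ContinuousAt.comp (g := chartAt (V × C2) m.val)
          ((chartAt (V × C2) m.val).continuousAt (mem_chart_source _ _)) g3
      exact continuous_snd.continuousAt.comp g4
    have g5 : ContinuousAt (fun q : V × Fib F t₀ => Φ q.1 ((chartAt (V × C2) m.val).symm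
        ((t₀ : V), (chartAt (V × C2) m.val q.2.val).2))) (t, m) :=
      ContinuousAt.comp (g := fun q : V × C2 => Φ q.1 ((chartAt (V × C2) m.val).symm
        ((t₀ : V), q.2))) (f := fun q : V × Fib F t₀ =>
          (q.1, (chartAt (V × C2) m.val q.2.val).2)) g1 g2
    refine g5.congr ?_
    have g6 : ∀ᶠ q : V × Fib F t₀ in 𝓝 (t, m), q.2.val ∈ (chartAt (V × C2) m.val).source :=
      (continuous_val.comp continuous_snd).continuousAt
        ((chartAt (V × C2) m.val).open_source.mem_nhds (mem_chart_source _ _))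
    filter_upwards [g6] with q hq
    have g7 : (((t₀ : V), (chartAt (V × C2) m.val q.2.val).2) : V × C2) =
        chartAt (V × C2) m.val q.2.val := Prod.ext (by rw [hp _ _ hq, hmp]) rfl
    rw [g7, (chartAt (V × C2) m.val).left_inv hq]
  have hsm : ∀ t ∈ N', ∀ m : Fib F t₀, ∀ x : E, m.val ∈ (F.triv x).source → ∀ y : E,
      Φ t m.val ∈ (F.triv y).source → ContDiffAt ℝ ∞ (fun q : V × C2 =>
        (F.triv y (Φ q.1 ((vch hD F x).symm ((t₀ : V), q.2)))).2) (t, (F.triv x m.val).2) := by
    intro t ht m x hx y hy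
    have hx' : m.val ∈ (chartAt (V × C2) x).source := by rw [hch, vch_source]; exact hx
    have g1 := h5 t ht m.val (hmp m) x hx'
    have g2 : (vch hD F x).symm ((t₀ : V), (F.triv x m.val).2) = m.val := by
      have : (((t₀ : V), (F.triv x m.val).2) : V × C2) = vch hD F x m.val :=
        Prod.ext (by rw [← hch, hp x _ hx', hmp]) rfl
      rw [this, (vch hD F x).left_inv hx']
    have g3 : ContMDiffAt 𝓘(ℝ, V × C2) 𝓘(ℝ, V × C2) ∞ (fun q : V × C2 =>
        vch hD F y (Φ q.1 ((vch hD F x).symm ((t₀ : V), q.2)))) (t, (F.triv x m.val).2) := by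
      refine ContMDiffAt.comp (g := vch hD F y) _ ?_ g1
      change ContMDiffAt 𝓘(ℝ, V × C2) 𝓘(ℝ, V × C2) ∞ (vch hD F y)
        (Φ t ((vch hD F x).symm ((t₀ : V), (F.triv x m.val).2)))
      rw [g2]
      exact contMDiffAt_of_mem_maximalAtlas (hmax y) (by rw [vch_source]; exact hy)
    rw [← contMDiffAt_iff_contDiffAt]
    exact ContMDiffAt.comp (g := fun q : V × C2 => q.2) (I' := 𝓘(ℝ, V × C2)) _
      (contDiff_snd.contMDiff.contMDiffAt) g3
  -- the points of the fibres in the charts
  have hsymm : ∀ (t : D) (x : Fib F t) (z : C2), z ∈ (fibChart F t x).target →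
      ((fibChart F t x).symm z).val = (vch hD F x.val).symm ((t : V), z) := by
    intro t x z hz
    rw [fibChart_symm_val F t x hz, vch_symm hD F x.val t z hz]
  -- the homeomorphisms
  set N : Set V := N' ∩ D with hN
  have hNN' : ∀ t ∈ N, t ∈ N' := fun t ht => ht.1
  have hND : N ⊆ D := fun t ht => ht.2
  have hpΦ : ∀ (t : V) (ht : t ∈ N) (m : Fib F t₀), F.p (Φ t m.val) = ⟨t, hND ht⟩ :=
    fun t ht m => Subtype.ext (h1 t (hNN' t ht) m.val (hmp m)).1
  have hpr : ∀ (t : V) (ht : t ∈ N) (y : Fib F ⟨t, hND ht⟩), F.p (r y.val) = t₀ := by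
    intro t ht y
    have hy : p y.val = t := congrArg Subtype.val y.prop
    exact Subtype.ext (h2 t (hNN' t ht) y.val hy).1
  let homeo : ∀ (t : V) (ht : t ∈ N), Fib F t₀ ≃ₜ Fib F ⟨t, hND ht⟩ := fun t ht =>
    { toFun := fun m => ⟨Φ t m.val, hpΦ t ht m⟩
      invFun := fun y => ⟨r y.val, hpr t ht y⟩
      left_inv := fun m => Fib.ext (h1 t (hNN' t ht) m.val (hmp m)).2
      right_inv := fun y => Fib.ext
        (h2 t (hNN' t ht) y.val (congrArg Subtype.val y.prop)).2
      continuous_toFun := by
        rw [isInducing_val.continuous_iff, continuous_iff_continuousAt]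
        intro m
        exact ContinuousAt.comp (g := fun q : V × Fib F t₀ => Φ q.1 q.2.val)
          (f := fun m : Fib F t₀ => (t, m)) (hΦc t (hNN' t ht) m)
          (continuousAt_const.prodMk continuousAt_id)
      continuous_invFun := by
        rw [isInducing_val.continuous_iff, continuous_iff_continuousAt]
        intro y
        have hy : p y.val = t := congrArg Subtype.val y.prop
        exact ContinuousAt.comp (g := r) (h4 y.val (by rw [hy]; exact hNN' t ht)).continuousAt
          continuous_val.continuousAt }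
  have hpos : ∀ (t : V) (ht : t ∈ N) (m : Fib F t₀),
      0 < (fderiv ℝ (fun z => fibChart F ⟨t, hND ht⟩ (homeo t ht m)
          (homeo t ht ((fibChart F t₀ m).symm z))) (F.triv m.val m.val).2).det := by
    intro t ht m
    obtain ⟨x, hx1, hx2, hdet⟩ := h6 t (hNN' t ht) m.val (hmp m)
    rw [hch, vch_source] at hx1 hx2
    have e1 : Φ t m.val = (homeo t ht m).val := rfl
    -- the three maps
    set k : C2 → C2 := fun w => trn F m.val x ((t₀ : V), w) with hk
    set g : C2 → C2 := fun w =>
      (chartAt (V × C2) x (Φ t ((chartAt (V × C2) x).symm ((t₀ : V), w)))).2 with hg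
    set l : C2 → C2 := fun w => trn F x (Φ t m.val) (t, w) with hl
    have hmw : (F.triv m.val).symm (t₀, (F.triv m.val m.val).2) = m.val := by
      have : ((t₀, (F.triv m.val m.val).2) : D × C2) = F.triv m.val m.val := by
        rw [F.mk_eq m.val (F.mem m.val), m.prop]
      rw [this, (F.triv m.val).left_inv (F.mem m.val)]
    have hmt : (t₀, (F.triv m.val m.val).2) ∈ (F.triv m.val).target := by
      have : ((t₀, (F.triv m.val m.val).2) : D × C2) = F.triv m.val m.val := by
        rw [F.mk_eq m.val (F.mem m.val), m.prop]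
      rw [this]
      exact (F.triv m.val).map_source (F.mem m.val)
    obtain ⟨k1, k2⟩ := trn_det_pos F 𝓕.hol m.val x t₀ (F.triv m.val m.val).2 hmt
      (by rw [hmw]; exact hx1)
    have hk0 : k (F.triv m.val m.val).2 = (F.triv x m.val).2 := by
      simp only [hk]
      rw [trn_apply, hmw]
    have hg0 : g (F.triv x m.val).2 = (F.triv x (Φ t m.val)).2 := by
      have hx1' : m.val ∈ (vch hD F x).source := by rw [vch_source]; exact hx1
      have : (((t₀ : V), (F.triv x m.val).2) : V × C2) = vch hD F x m.val :=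
        Prod.ext (by rw [← hch, hp x _ hx1', hmp]) rfl
      simp only [hg]
      rw [this, hch, (vch hD F x).left_inv hx1']
      rfl
    have hlt : ((⟨t, hND ht⟩ : D), (F.triv x (Φ t m.val)).2) ∈ (F.triv x).target := by
      have : (((⟨t, hND ht⟩ : D), (F.triv x (Φ t m.val)).2) : D × C2) =
          F.triv x (Φ t m.val) := by
        rw [F.mk_eq x hx2, hpΦ t ht m]
      rw [this]
      exact (F.triv x).map_source hx2
    have hls : (F.triv x).symm ((⟨t, hND ht⟩ : D), (F.triv x (Φ t m.val)).2) = Φ t m.val := by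
      have : (((⟨t, hND ht⟩ : D), (F.triv x (Φ t m.val)).2) : D × C2) =
          F.triv x (Φ t m.val) := by
        rw [F.mk_eq x hx2, hpΦ t ht m]
      rw [this, (F.triv x).left_inv hx2]
    obtain ⟨l1, l2⟩ := trn_det_pos F 𝓕.hol x (Φ t m.val) ⟨t, hND ht⟩ (F.triv x (Φ t m.val)).2
      hlt (by rw [hls]; exact F.mem _)
    have hg1 : DifferentiableAt ℝ g (F.triv x m.val).2 := by
      have g1 := hsm t (hNN' t ht) m x hx1 x hx2
      have g2 : ContDiffAt ℝ ∞ (fun z : C2 => (t, z)) (F.triv x m.val).2 :=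
        contDiffAt_const.prodMk contDiffAt_id
      have g3 : ContDiffAt ℝ ∞ (fun z : C2 =>
          (F.triv x (Φ t ((vch hD F x).symm ((t₀ : V), z)))).2) (F.triv x m.val).2 :=
        ContDiffAt.comp (g := fun q : V × C2 =>
          (F.triv x (Φ q.1 ((vch hD F x).symm ((t₀ : V), q.2)))).2) _ g1 g2
      exact g3.differentiableAt (by simp)
    have hfull : (fun z => fibChart F ⟨t, hND ht⟩ (homeo t ht m)
        (homeo t ht ((fibChart F t₀ m).symm z))) =ᶠ[𝓝 (F.triv m.val m.val).2]
        fun z => l (g (k z)) := by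
      have c1 : ∀ᶠ z in 𝓝 (F.triv m.val m.val).2, z ∈ (fibChart F t₀ m).target :=
        (fibChart F t₀ m).open_target.mem_nhds hmt
      have c0 : ContinuousAt (fibChart F t₀ m).symm (F.triv m.val m.val).2 :=
        (fibChart F t₀ m).continuousAt_symm hmt
      have c00 : (fibChart F t₀ m).symm (F.triv m.val m.val).2 = m :=
        (fibChart F t₀ m).left_inv (F.mem m.val)
      have c2 : ∀ᶠ z in 𝓝 (F.triv m.val m.val).2,
          ((fibChart F t₀ m).symm z).val ∈ (F.triv x).source := by
        have c3 : ContinuousAt (fun z => ((fibChart F t₀ m).symm z).val)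
            (F.triv m.val m.val).2 :=
          continuous_val.continuousAt.comp c0
        refine c3 ((F.triv x).open_source.mem_nhds ?_)
        change ((fibChart F t₀ m).symm (F.triv m.val m.val).2).val ∈ _
        rw [c00]
        exact hx1
      have c4 : ∀ᶠ z in 𝓝 (F.triv m.val m.val).2,
          Φ t ((fibChart F t₀ m).symm z).val ∈ (F.triv x).source := by
        have c3 : ContinuousAt (fun z => (homeo t ht ((fibChart F t₀ m).symm z)).val)
            (F.triv m.val m.val).2 :=
          (continuous_val.comp (homeo t ht).continuous).continuousAt.comp c0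
        refine c3 ((F.triv x).open_source.mem_nhds ?_)
        change (homeo t ht ((fibChart F t₀ m).symm (F.triv m.val m.val).2)).val ∈ _
        rw [c00]
        exact hx2
      filter_upwards [c1, c2, c4] with z z1 z2 z3
      have z4 : ((fibChart F t₀ m).symm z).val = (F.triv m.val).symm (t₀, z) :=
        fibChart_symm_val F t₀ m z1
      have z5 : k z = (F.triv x ((fibChart F t₀ m).symm z).val).2 := by
        simp only [hk]
        rw [trn_apply, z4]
      have z6 : (((t₀ : V), k z) : V × C2) = vch hD F x ((fibChart F t₀ m).symm z).val := by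
        rw [z5]
        refine Prod.ext ?_ rfl
        rw [← hch, hp x _ (by rw [hch, vch_source]; exact z2), hmp]
      have z7 : g (k z) = (F.triv x (Φ t ((fibChart F t₀ m).symm z).val)).2 := by
        simp only [hg]
        rw [z6, hch, (vch hD F x).left_inv (by rw [vch_source]; exact z2)]
        rfl
      have z8 : t = (F.p (Φ t ((fibChart F t₀ m).symm z).val) : V) := by
        rw [hpΦ t ht]
      simp only [hl]
      rw [z7]
      conv_rhs => rw [z8]
      have z9 := trn_eq F x (Φ t m.val) z3
      rw [← z8] at z9 ⊢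
      rw [z9]
      rfl
    change 0 < (fderiv ℝ (fun z => fibChart F ⟨t, hND ht⟩ (homeo t ht m)
        (homeo t ht ((fibChart F t₀ m).symm z))) (F.triv m.val m.val).2).det
    rw [hfull.fderiv_eq]
    have d1 : DifferentiableAt ℝ k (F.triv m.val m.val).2 := k1
    have d2 : DifferentiableAt ℝ g (k (F.triv m.val m.val).2) := by rw [hk0]; exact hg1
    have d3 : DifferentiableAt ℝ l (g (k (F.triv m.val m.val).2)) := by
      rw [hk0, hg0]; exact l1
    rw [fderiv_fun_comp (g := l) (f := fun z => g (k z)) _ d3 (d2.comp _ d1),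
      fderiv_fun_comp (g := g) (f := k) _ d2 d1, det_compR, det_compR, hk0, hg0]
    exact mul_pos l2 (mul_pos hdet k2)
  let homeo' : ∀ (t : V) (ht : t ∈ N), (𝓕.k3 t₀).X ≃ₜ (𝓕.k3 ⟨t, hND ht⟩).X := homeo
  have hdiff : ∀ (t : V) (ht : t ∈ N), H686.IsDiffeo (homeo' t ht) := by
    intro t ht
    refine H686.isDiffeo_of_charts (X := 𝓕.k3 t₀) (Y := 𝓕.k3 ⟨t, hND ht⟩) (homeo' t ht) ?_ ?_ ?_
    · rintro _ ⟨x, rfl⟩ _ ⟨y, rfl⟩ m hm hm'
      have hm1 : m.val ∈ (F.triv x.val).source := hm
      have hm2 : Φ t m.val ∈ (F.triv y.val).source := hm'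
      have g1 := hsm t (hNN' t ht) m x.val hm1 y.val hm2
      have g2 : ContDiffAt ℝ ∞ (fun z : C2 => (t, z)) (F.triv x.val m.val).2 :=
        contDiffAt_const.prodMk contDiffAt_id
      have g3 : ContDiffAt ℝ ∞ (fun z : C2 =>
          (F.triv y.val (Φ t ((vch hD F x.val).symm ((t₀ : V), z)))).2) (F.triv x.val m.val).2 :=
        ContDiffAt.comp (g := fun q : V × C2 =>
          (F.triv y.val (Φ q.1 ((vch hD F x.val).symm ((t₀ : V), q.2)))).2) _ g1 g2
      refine g3.congr_of_eventuallyEq ?_
      filter_upwards [(fibChart F t₀ x).open_target.mem_nhds ((fibChart F t₀ x).map_source hm)]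
        with z hz
      rw [← hsymm t₀ x z hz]
      rfl
    · rintro _ ⟨y, rfl⟩ _ ⟨x, rfl⟩ m hm hm'
      have hm1 : m.val ∈ (F.triv y.val).source := hm
      have hm2 : r m.val ∈ (F.triv x.val).source := hm'
      have hmt : p m.val = t := congrArg Subtype.val m.prop
      have hy1 : m.val ∈ (vch hD F y.val).source := by rw [vch_source]; exact hm1
      have hpt : (vch hD F y.val m.val) = (t, (F.triv y.val m.val).2) :=
        Prod.ext (by rw [← hch, hp _ _ hy1, hmt]) rfl
      have g1 : ContMDiffAt 𝓘(ℝ, V × C2) 𝓘(ℝ, V × C2) ∞ (vch hD F y.val).symm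
          (vch hD F y.val m.val) :=
        contMDiffAt_symm_of_mem_maximalAtlas (hmax y.val) ((vch hD F y.val).map_source hy1)
      have g2 : ContMDiffAt 𝓘(ℝ, V × C2) 𝓘(ℝ, V × C2) ∞
          (fun q => r ((vch hD F y.val).symm q)) (vch hD F y.val m.val) := by
        refine ContMDiffAt.comp (g := r) _ ?_ g1
        rw [(vch hD F y.val).left_inv hy1]
        exact h4 m.val (by rw [hmt]; exact hNN' t ht)
      have g3 : ContMDiffAt 𝓘(ℝ, V × C2) 𝓘(ℝ, V × C2) ∞
          (fun q => vch hD F x.val (r ((vch hD F y.val).symm q))) (vch hD F y.val m.val) := by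
        refine ContMDiffAt.comp (g := vch hD F x.val) _ ?_ g2
        rw [(vch hD F y.val).left_inv hy1]
        exact contMDiffAt_of_mem_maximalAtlas (hmax x.val) (by rw [vch_source]; exact hm2)
      have g4 : ContDiffAt ℝ ∞ (fun q => (vch hD F x.val (r ((vch hD F y.val).symm q))).2)
          (vch hD F y.val m.val) := by
        rw [← contMDiffAt_iff_contDiffAt]
        exact ContMDiffAt.comp (g := fun q : V × C2 => q.2) (I' := 𝓘(ℝ, V × C2)) _
          (contDiff_snd.contMDiff.contMDiffAt) g3
      rw [hpt] at g4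
      have g5 : ContDiffAt ℝ ∞ (fun z : C2 => (t, z)) (F.triv y.val m.val).2 :=
        contDiffAt_const.prodMk contDiffAt_id
      have g6 : ContDiffAt ℝ ∞ (fun z : C2 =>
          (vch hD F x.val (r ((vch hD F y.val).symm (t, z)))).2) (F.triv y.val m.val).2 :=
        ContDiffAt.comp (g := fun q : V × C2 =>
          (vch hD F x.val (r ((vch hD F y.val).symm q))).2) _ g4 g5
      refine g6.congr_of_eventuallyEq ?_
      filter_upwards [(fibChart F ⟨t, hND ht⟩ y).open_target.mem_nhds
        ((fibChart F ⟨t, hND ht⟩ y).map_source hm)] with z hz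
      have g7 := hsymm ⟨t, hND ht⟩ y z hz
      change _ = (vch hD F x.val (r ((vch hD F y.val).symm
        ((((⟨t, hND ht⟩ : D) : V), z) : V × C2)))).2
      rw [← g7]
      rfl
    · intro m
      exact ⟨fibChart F t₀ m, mem_range_self _, fibChart F ⟨t, hND ht⟩ (homeo t ht m),
        mem_range_self _, F.mem (Fib.val m), F.mem _, hpos t ht m⟩
  refine ⟨⟨N, hN'o.inter hD, ⟨hN't, t₀.2⟩, hND, fun t m => Φ t m.val,
    fun t ht m => congrArg Subtype.val (hpΦ t ht m), fun m => h3 m.val (hmp m), ?_, ?_,
    homeo', fun t ht m => rfl, hdiff⟩⟩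
  · rintro ⟨t, m⟩ ⟨ht, -⟩
    exact (hΦc t (hNN' t ht) m).continuousWithinAt
  · intro t ht x y hy
    have g1 := hsm t (hNN' t ht) x x.val (F.mem x.val) y hy
    have g2 : ContDiffAt ℝ ∞ (fun q : V × Vale.Agent.P267.FL.C2 => (q.1, H445.φ.symm q.2))
        (t, H445.φ (F.triv x.val x.val).2) := by
      refine contDiffAt_fst.prodMk ?_
      have g3 : ContDiff ℝ ∞ (fun z : Vale.Agent.P267.FL.C2 => H445.φ.symm z) :=
        (H445.φ.symm.contDiff (n := ∞)).restrict_scalars ℝ
      exact g3.contDiffAt.comp _ contDiffAt_snd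
    have g4 : ContDiffAt ℝ ∞ (fun q : V × Vale.Agent.P267.FL.C2 =>
        (F.triv y (Φ q.1 ((vch hD F x.val).symm ((t₀ : V), H445.φ.symm q.2)))).2)
        (t, H445.φ (F.triv x.val x.val).2) := by
      refine ContDiffAt.comp (g := fun q : V × C2 =>
        (F.triv y (Φ q.1 ((vch hD F x.val).symm ((t₀ : V), q.2)))).2) _ ?_ g2
      change ContDiffAt ℝ ∞ _ (t, H445.φ.symm (H445.φ (F.triv x.val x.val).2))
      rw [H445.φ.symm_apply_apply]
      exact g1
    refine g4.congr_of_eventuallyEq ?_
    have g5 : ∀ᶠ q : V × Vale.Agent.P267.FL.C2 in 𝓝 (t, H445.φ (F.triv x.val x.val).2),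
        H445.φ.symm q.2 ∈ (fibChart F t₀ x).target := by
      have g6 : ContinuousAt (fun q : V × Vale.Agent.P267.FL.C2 => H445.φ.symm q.2)
          (t, H445.φ (F.triv x.val x.val).2) :=
        (H445.φ.symm.continuous.comp continuous_snd).continuousAt
      refine g6 ((fibChart F t₀ x).open_target.mem_nhds ?_)
      change H445.φ.symm (H445.φ (F.triv x.val x.val).2) ∈ _
      rw [H445.φ.symm_apply_apply]
      exact (fibChart F t₀ x).map_source (F.mem x.val)
    filter_upwards [g5] with q hq
    rw [← hsymm t₀ x _ hq]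
    rfl

end

end Vale.Agent.P290.H470
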