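import Vale.Agent.P290.H470.Retr

/-!
# P290 (helper470), F2-TRIV: smooth trivialisation of a submersion near a compact fibre
-/

open scoped Manifold ContDiff Topology
open Set Filter

set_option linter.unusedSectionVars false

namespace Vale.Agent.P290.H470.Retr

variable {V H : Type*} [NormedAddCommGroup V] [NormedSpace ℝ V] [FiniteDimensional ℝ V]
  [NormedAddCommGroup H] [NormedSpace ℝ H] [FiniteDimensional ℝ H]

theorem fderiv_slice {f : V × H → H} {q0 : V × H} (hf : DifferentiableAt ℝ f q0) :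
    fderiv ℝ (fun z => f (q0.1, z)) q0.2 =
      (fderiv ℝ f q0).comp (ContinuousLinearMap.inr ℝ V H) := by
  have h1 : HasFDerivAt (fun z : H => (q0.1, z)) (ContinuousLinearMap.inr ℝ V H) q0.2 :=
    hasFDerivAt_prodMk_right q0.1 q0.2
  have h2 : HasFDerivAt f (fderiv ℝ f q0) (q0.1, q0.2) := hf.hasFDerivAt
  exact (h2.comp q0.2 h1).fderiv

/-- the local inverse of `(t, z) ↦ (t, f (t, z))` -/
theorem loc_inv {f : V × H → H} {q0 : V × H} (hf : ContDiffAt ℝ ∞ f q0)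
    (hd : (fderiv ℝ (fun z => f (q0.1, z)) q0.2).det ≠ 0) :
    ∃ G : V × H → V × H, ContDiffAt ℝ ∞ G (q0.1, f q0) ∧ G (q0.1, f q0) = q0 ∧
      (∀ᶠ q in 𝓝 (q0.1, f q0), (G q).1 = q.1 ∧ f (G q) = q.2) ∧
      ∃ U ∈ 𝓝 q0, ∀ q ∈ U, ∀ q' ∈ U, q.1 = q'.1 → f q = f q' → q = q' := by
  have hfd : DifferentiableAt ℝ f q0 := hf.differentiableAt (by simp)
  set F : V × H → V × H := fun q => (q.1, f q) with hF
  have hFc : ContDiffAt ℝ ∞ F q0 := contDiffAt_fst.prodMk hf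
  set L : V × H →L[ℝ] V × H := (ContinuousLinearMap.fst ℝ V H).prod (fderiv ℝ f q0) with hL
  have hFL : HasFDerivAt F L q0 := hasFDerivAt_fst.prodMk hfd.hasFDerivAt
  have hinj : Function.Injective L := by
    rw [injective_iff_map_eq_zero]
    rintro ⟨v, h⟩ h0
    have h1 : v = 0 := congrArg Prod.fst h0
    have h2 : fderiv ℝ f q0 (v, h) = 0 := congrArg Prod.snd h0
    rw [fderiv_slice hfd] at hd
    have h3 : h = 0 := by
      have hk : LinearMap.ker ((((fderiv ℝ f q0).comp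
          (ContinuousLinearMap.inr ℝ V H) : H →L[ℝ] H)) : H →ₗ[ℝ] H) = ⊥ := by
        by_contra hne
        exact hd (LinearMap.det_eq_zero_iff_ker_ne_bot.2 hne)
      have hm : h ∈ LinearMap.ker ((((fderiv ℝ f q0).comp
          (ContinuousLinearMap.inr ℝ V H) : H →L[ℝ] H)) : H →ₗ[ℝ] H) := by
        rw [LinearMap.mem_ker]
        change fderiv ℝ f q0 (0, h) = 0
        rw [h1] at h2
        exact h2
      rw [hk] at hm
      exact (Submodule.mem_bot ℝ).1 hm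
    rw [h1, h3]; rfl
  let Le : (V × H) ≃L[ℝ] (V × H) :=
    (LinearEquiv.ofInjectiveEndo (L : V × H →ₗ[ℝ] V × H) hinj).toContinuousLinearEquiv
  have hLe : (Le : V × H →L[ℝ] V × H) = L := ContinuousLinearMap.ext fun q => rfl
  have hFL' : HasFDerivAt F (Le : V × H →L[ℝ] V × H) q0 := by
    rw [hLe]
    exact hFL
  have hn0 : (∞ : WithTop ℕ∞) ≠ 0 := by simp
  set e := hFc.toOpenPartialHomeomorph F hFL' hn0 with he
  have hq0 : q0 ∈ e.source := hFc.mem_toOpenPartialHomeomorph_source hFL' hn0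
  have hcoe : ∀ q, e q = F q := fun q => rfl
  have ht : (q0.1, f q0) ∈ e.target := e.map_source hq0
  refine ⟨e.symm, hFc.to_localInverse hFL' hn0, ?_, ?_, e.source, e.open_source.mem_nhds hq0, ?_⟩
  · exact e.left_inv hq0
  · filter_upwards [e.open_target.mem_nhds ht] with q hq
    have h1 : F (e.symm q) = q := e.right_inv hq
    have h2 : (F (e.symm q)).1 = q.1 := congrArg Prod.fst h1
    have h3 : (F (e.symm q)).2 = q.2 := congrArg Prod.snd h1
    exact ⟨h2, h3⟩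
  · intro q hq q' hq' h1 h2
    exact e.injOn hq hq' (Prod.ext h1 h2)

variable {E : Type*} [TopologicalSpace E] [ChartedSpace (V × H) E] [T2Space E]
  [SecondCountableTopology E] [IsManifold 𝓘(ℝ, V × H) ∞ E]

include H in
theorem continuous_p {p : E → V} (hp : ∀ x, ∀ y ∈ (chartAt (V × H) x).source,
    (chartAt (V × H) x y).1 = p y) : Continuous p := by
  rw [continuous_iff_continuousAt]
  intro x
  have h1 : ContinuousAt (fun y => (chartAt (V × H) x y).1) x :=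
    continuous_fst.continuousAt.comp ((chartAt (V × H) x).continuousAt (mem_chart_source _ x))
  refine h1.congr ?_
  filter_upwards [(chartAt (V × H) x).open_source.mem_nhds (mem_chart_source _ x)] with y hy
  exact hp x y hy

include H in
/-- the projection is open -/
theorem exists_near {p : E → V} (hp : ∀ x, ∀ y ∈ (chartAt (V × H) x).source,
    (chartAt (V × H) x y).1 = p y) (x : E) {U : Set E} (hU : U ∈ 𝓝 x) :
    ∀ᶠ t in 𝓝 (p x), ∃ y ∈ U, p y = t := by
  set ψ := chartAt (V × H) x with hψ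
  have hx := mem_chart_source (V × H) x
  have h1 : ContinuousAt (fun t => ψ.symm (t, (ψ x).2)) (p x) := by
    have h2 : ContinuousAt ψ.symm ((p x, (ψ x).2) : V × H) := by
      have : ((p x, (ψ x).2) : V × H) = ψ x := by rw [← hp x x hx]
      rw [this]
      exact ψ.continuousAt_symm (ψ.map_source hx)
    exact ContinuousAt.comp (g := ψ.symm) h2
      (continuousAt_id.prodMk continuousAt_const)
  have h3 : ψ.symm (p x, (ψ x).2) = x := by
    have : ((p x, (ψ x).2) : V × H) = ψ x := by rw [← hp x x hx]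
    rw [this, ψ.left_inv hx]
  have h4 : ∀ᶠ t in 𝓝 (p x), (t, (ψ x).2) ∈ ψ.target := by
    have h5 : ContinuousAt (fun t : V => (t, (ψ x).2)) (p x) :=
      continuousAt_id.prodMk continuousAt_const
    refine h5 (ψ.open_target.mem_nhds ?_)
    have : ((p x, (ψ x).2) : V × H) = ψ x := by rw [← hp x x hx]
    have h7 := ψ.map_source hx
    rw [← this] at h7
    exact h7
  have h6 : ∀ᶠ t in 𝓝 (p x), ψ.symm (t, (ψ x).2) ∈ U := by
    refine h1 ?_
    change U ∈ 𝓝 (ψ.symm (p x, (ψ x).2))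
    rw [h3]
    exact hU
  filter_upwards [h6, h4] with t ht ht'
  exact ⟨_, ht, fst_symm hp x ht'⟩

/-- the second component of `r` in the chart at `x` -/
noncomputable def fr (H : Type*) [NormedAddCommGroup H] [ChartedSpace (V × H) E] (r : E → E) (x : E)
    (q : V × H) : H :=
  (chartAt (V × H) x (r ((chartAt (V × H) x).symm q))).2

theorem fr_smooth {r : E → E} {x y : E} (hr : ContMDiffAt 𝓘(ℝ, V × H) 𝓘(ℝ, V × H) ∞ r y)
    (hy : y ∈ (chartAt (V × H) x).source) (hry : r y ∈ (chartAt (V × H) x).source) :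
    ContDiffAt ℝ ∞ (fr H r x) (chartAt (V × H) x y) := by
  rw [← contMDiffAt_iff_contDiffAt]
  have hm : chartAt (V × H) x ∈ IsManifold.maximalAtlas 𝓘(ℝ, V × H) ∞ E :=
    IsManifold.chart_mem_maximalAtlas x
  have h1 : ContMDiffAt 𝓘(ℝ, V × H) 𝓘(ℝ, V × H) ∞ (chartAt (V × H) x).symm
      (chartAt (V × H) x y) :=
    contMDiffAt_symm_of_mem_maximalAtlas hm ((chartAt (V × H) x).map_source hy)
  have h2 : ContMDiffAt 𝓘(ℝ, V × H) 𝓘(ℝ, V × H) ∞ r
      ((chartAt (V × H) x).symm (chartAt (V × H) x y)) := by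
    rw [(chartAt (V × H) x).left_inv hy]
    exact hr
  have h3 : ContMDiffAt 𝓘(ℝ, V × H) 𝓘(ℝ, V × H) ∞
      (fun q => r ((chartAt (V × H) x).symm q)) (chartAt (V × H) x y) :=
    ContMDiffAt.comp (g := r) _ h2 h1
  have h4 : ContMDiffAt 𝓘(ℝ, V × H) 𝓘(ℝ, V × H) ∞ (chartAt (V × H) x)
      (r ((chartAt (V × H) x).symm (chartAt (V × H) x y))) := by
    rw [(chartAt (V × H) x).left_inv hy]
    exact contMDiffAt_of_mem_maximalAtlas hm hry
  have h5 : ContMDiffAt 𝓘(ℝ, V × H) 𝓘(ℝ, V × H) ∞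
      (fun q => chartAt (V × H) x (r ((chartAt (V × H) x).symm q))) (chartAt (V × H) x y) :=
    ContMDiffAt.comp (g := chartAt (V × H) x) _ h4 h3
  exact ContMDiffAt.comp (g := fun q : V × H => q.2) (I' := 𝓘(ℝ, V × H)) _
    (contDiff_snd.contMDiff.contMDiffAt) h5

/-- the set of points where `r` is a local diffeomorphism on the fibres, orientation preserving in
the charts -/
def Reg (H : Type*) [NormedAddCommGroup H] [NormedSpace ℝ H] [ChartedSpace (V × H) E]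
    (O : Set E) (r : E → E) : Set E :=
  {y | ∃ x, y ∈ O ∧ y ∈ (chartAt (V × H) x).source ∧ r y ∈ (chartAt (V × H) x).source ∧
    0 < (fderiv ℝ (fun z => fr H r x ((chartAt (V × H) x y).1, z)) (chartAt (V × H) x y).2).det}

theorem det_mul_of_comp {A B : H →L[ℝ] H} (h : A.comp B = ContinuousLinearMap.id ℝ H) :
    A.det * B.det = 1 := by
  have h1 : (A.comp B).det = 1 := by
    rw [h]
    exact LinearMap.det_id
  rw [← h1]
  exact (LinearMap.det_comp _ _).symm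

theorem local_section {p : E → V} (hp : ∀ x, ∀ y ∈ (chartAt (V × H) x).source,
    (chartAt (V × H) x y).1 = p y) {t0 : V} {O : Set E} {r : E → E} (hO : IsOpen O)
    (hr : ∀ y ∈ O, ContMDiffAt 𝓘(ℝ, V × H) 𝓘(ℝ, V × H) ∞ r y) (hr0 : ∀ y ∈ O, p (r y) = t0)
    {y x : E} (hyO : y ∈ O) (hy : y ∈ (chartAt (V × H) x).source)
    (hry : r y ∈ (chartAt (V × H) x).source)
    (hd : 0 < (fderiv ℝ (fun z => fr H r x ((chartAt (V × H) x y).1, z))
      (chartAt (V × H) x y).2).det) :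
    ∃ σ : V × H → E,
      ContMDiffAt 𝓘(ℝ, V × H) 𝓘(ℝ, V × H) ∞ σ (p y, (chartAt (V × H) x (r y)).2) ∧
      σ (p y, (chartAt (V × H) x (r y)).2) = y ∧
      (∀ᶠ q in 𝓝 (p y, (chartAt (V × H) x (r y)).2),
        p (σ q) = q.1 ∧ r (σ q) = (chartAt (V × H) x).symm (t0, q.2)) ∧
      0 < (fderiv ℝ (fun w => (chartAt (V × H) x (σ (p y, w))).2)
        (chartAt (V × H) x (r y)).2).det := by
  set ψ := chartAt (V × H) x with hψ
  have hm : ψ ∈ IsManifold.maximalAtlas 𝓘(ℝ, V × H) ∞ E := IsManifold.chart_mem_maximalAtlas x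
  have hfr : fr H r x (ψ y) = (ψ (r y)).2 := by
    rw [fr, ← hψ, ψ.left_inv hy]
  have hψ1 : (ψ y).1 = p y := hp x y hy
  obtain ⟨G, hG1, hG2, hG3, U, hU, hU2⟩ := loc_inv (fr_smooth (hr y hyO) hy hry) hd.ne'
  rw [hfr, hψ1] at hG1 hG2 hG3
  have hG4 : ContinuousAt G (p y, (ψ (r y)).2) := hG1.continuousAt
  have hyt : ψ y ∈ ψ.target := ψ.map_source hy
  have hGt : ∀ᶠ q in 𝓝 (p y, (ψ (r y)).2), G q ∈ ψ.target := by
    refine hG4 ?_
    rw [hG2]
    exact ψ.open_target.mem_nhds hyt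
  have hσc : ContinuousAt (fun q => ψ.symm (G q)) (p y, (ψ (r y)).2) := by
    refine ContinuousAt.comp (g := ψ.symm) ?_ hG4
    rw [hG2]
    exact ψ.continuousAt_symm hyt
  have hσ0 : ψ.symm (G (p y, (ψ (r y)).2)) = y := by rw [hG2, ψ.left_inv hy]
  have hσr : ∀ᶠ q in 𝓝 (p y, (ψ (r y)).2), ψ.symm (G q) ∈ O ∧ r (ψ.symm (G q)) ∈ ψ.source := by
    have h1 : ContinuousAt (fun q => r (ψ.symm (G q))) (p y, (ψ (r y)).2) := by
      refine ContinuousAt.comp (g := r) ?_ hσc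
      rw [hσ0]
      exact (hr y hyO).continuousAt
    have h2 : ∀ᶠ q in 𝓝 (p y, (ψ (r y)).2), ψ.symm (G q) ∈ O := by
      refine hσc ?_
      change O ∈ 𝓝 (ψ.symm (G (p y, (ψ (r y)).2)))
      rw [hσ0]; exact hO.mem_nhds hyO
    have h3 : ∀ᶠ q in 𝓝 (p y, (ψ (r y)).2), r (ψ.symm (G q)) ∈ ψ.source := by
      refine h1 ?_
      change ψ.source ∈ 𝓝 (r (ψ.symm (G (p y, (ψ (r y)).2))))
      rw [hσ0]; exact ψ.open_source.mem_nhds hry
    exact h2.and h3
  refine ⟨fun q => ψ.symm (G q), ?_, hσ0, ?_, ?_⟩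
  · refine ContMDiffAt.comp (g := ψ.symm) _ ?_ hG1.contMDiffAt
    rw [hG2]
    exact contMDiffAt_symm_of_mem_maximalAtlas hm hyt
  · filter_upwards [hG3, hGt, hσr] with q h1 h2 h3
    refine ⟨by rw [fst_symm hp x h2, h1.1], ?_⟩
    have h4 : ψ (r (ψ.symm (G q))) = (t0, q.2) := by
      ext1
      · rw [hp x _ h3.2, hr0 _ h3.1]
      · exact h1.2
    rw [← h4, ψ.left_inv h3.2]
  · set g : H → H := fun w => (ψ (ψ.symm (G (p y, w)))).2 with hg
    have hk : ContinuousAt (fun w : H => (p y, w)) (ψ (r y)).2 :=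
      continuousAt_const.prodMk continuousAt_id
    have hg1 : g =ᶠ[𝓝 (ψ (r y)).2] fun w => (G (p y, w)).2 := by
      filter_upwards [hk.eventually hGt] with w hw
      simp only [hg]
      rw [ψ.right_inv hw]
    have hg2 : ∀ᶠ w in 𝓝 (ψ (r y)).2, fr H r x (p y, g w) = w := by
      filter_upwards [hk.eventually hG3, hg1] with w hw hw'
      rw [hw']
      have : ((p y, (G (p y, w)).2) : V × H) = G (p y, w) := Prod.ext hw.1.symm rfl
      rw [this]
      exact hw.2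
    have hg3 : DifferentiableAt ℝ g (ψ (r y)).2 := by
      refine DifferentiableAt.congr_of_eventuallyEq ?_ hg1
      have h1 : DifferentiableAt ℝ G (p y, (ψ (r y)).2) := hG1.differentiableAt (by simp)
      have h2 : DifferentiableAt ℝ (fun w : H => (p y, w)) (ψ (r y)).2 :=
        (hasFDerivAt_prodMk_right (𝕜 := ℝ) (p y) (ψ (r y)).2).differentiableAt
      exact (DifferentiableAt.comp (g := G) (ψ (r y)).2 h1 h2).snd
    have hg0 : g (ψ (r y)).2 = (ψ y).2 := by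
      simp only [hg]
      rw [hσ0]
    rw [hψ1] at hd
    set f : H → H := fun z => fr H r x (p y, z) with hf
    have hf3 : DifferentiableAt ℝ f (g (ψ (r y)).2) := by
      rw [hg0]
      have h1 : DifferentiableAt ℝ (fr H r x) (p y, (ψ y).2) := by
        have := (fr_smooth (hr y hyO) hy hry).differentiableAt (by simp)
        have h2 : ((p y, (ψ y).2) : V × H) = ψ y := Prod.ext hψ1.symm rfl
        rw [h2]
        exact this
      have h2 : DifferentiableAt ℝ (fun w : H => (p y, w)) (ψ y).2 :=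
        (hasFDerivAt_prodMk_right (𝕜 := ℝ) (p y) (ψ y).2).differentiableAt
      exact DifferentiableAt.comp (g := fr H r x) _ h1 h2
    have h1 : (fderiv ℝ f (g (ψ (r y)).2)).comp (fderiv ℝ g (ψ (r y)).2) =
        ContinuousLinearMap.id ℝ H := by
      rw [← fderiv_fun_comp _ hf3 hg3]
      have h2 : (fun w => f (g w)) =ᶠ[𝓝 (ψ (r y)).2] fun w => w := hg2
      rw [h2.fderiv_eq]
      exact fderiv_fun_id
    have h2 := det_mul_of_comp h1
    rw [hg0] at h2
    by_contra hneg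
    rw [not_lt] at hneg
    have h3 := mul_nonpos_of_nonneg_of_nonpos hd.le hneg
    linarith

theorem isOpen_reg {O : Set E} {r : E → E} (hO : IsOpen O)
    (hr : ∀ y ∈ O, ContMDiffAt 𝓘(ℝ, V × H) 𝓘(ℝ, V × H) ∞ r y) : IsOpen (Reg (V := V) H O r) := by
  rw [isOpen_iff_mem_nhds]
  rintro y ⟨x, hyO, hy, hry, hd⟩
  set ψ := chartAt (V × H) x with hψ
  have h1 : ∀ y' ∈ O, y' ∈ ψ.source → r y' ∈ ψ.source →
      fderiv ℝ (fun z => fr H r x ((ψ y').1, z)) (ψ y').2 =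
        (fderiv ℝ (fr H r x) (ψ y')).comp (ContinuousLinearMap.inr ℝ V H) := by
    intro y' h1 h2 h3
    exact fderiv_slice ((fr_smooth (hr y' h1) h2 h3).differentiableAt (by simp))
  have h2 : ContinuousAt (fun y' => ((fderiv ℝ (fr H r x) (ψ y')).comp
      (ContinuousLinearMap.inr ℝ V H)).det) y := by
    have h3 : ContinuousAt (fderiv ℝ (fr H r x)) (ψ y) :=
      ((fr_smooth (hr y hyO) hy hry).fderiv_right (m := 0) (by simp)).continuousAt
    have h4 : ContinuousAt (fun y' => fderiv ℝ (fr H r x) (ψ y')) y :=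
      ContinuousAt.comp (g := fderiv ℝ (fr H r x)) h3 (ψ.continuousAt hy)
    have h5 : ContinuousAt (fun y' => (fderiv ℝ (fr H r x) (ψ y')).comp
        (ContinuousLinearMap.inr ℝ V H)) y := h4.clm_comp continuousAt_const
    exact ContinuousAt.comp (g := fun A : H →L[ℝ] H => A.det)
      ContinuousLinearMap.continuous_det.continuousAt h5
  rw [h1 y hyO hy hry] at hd
  filter_upwards [hO.mem_nhds hyO, ψ.open_source.mem_nhds hy,
    (hr y hyO).continuousAt.preimage_mem_nhds (ψ.open_source.mem_nhds hry),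
    h2.eventually (lt_mem_nhds hd)] with y' g1 g2 g3 g4
  refine ⟨x, g1, g2, g3, ?_⟩
  rw [← hψ, h1 y' g1 g2 g3]
  exact g4

theorem subset_reg {p : E → V} (hp : ∀ x, ∀ y ∈ (chartAt (V × H) x).source,
    (chartAt (V × H) x y).1 = p y) {t0 : V} {O : Set E} {r : E → E}
    (hM : p ⁻¹' {t0} ⊆ O) (hr1 : ∀ y ∈ O, p y = t0 → r y = y) :
    p ⁻¹' {t0} ⊆ Reg (V := V) H O r := by
  intro y hy
  have hy0 : p y = t0 := hy
  have hyO := hM hy
  have hs := mem_chart_source (V × H) y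
  refine ⟨y, hyO, hs, by rw [hr1 y hyO hy0]; exact hs, ?_⟩
  set ψ := chartAt (V × H) y with hψ
  have hψ1 : (ψ y).1 = t0 := by rw [hp y y hs, hy0]
  have h1 : (fun z => fr H r y ((ψ y).1, z)) =ᶠ[𝓝 (ψ y).2] fun z => z := by
    have h2 : ContinuousAt (fun z : H => ((ψ y).1, z)) (ψ y).2 :=
      continuousAt_const.prodMk continuousAt_id
    have h3 : ∀ᶠ z in 𝓝 (ψ y).2, ((ψ y).1, z) ∈ ψ.target :=
      h2 (ψ.open_target.mem_nhds (ψ.map_source hs))
    filter_upwards [h3] with z hz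
    have h4 : p (ψ.symm ((ψ y).1, z)) = t0 := by rw [fst_symm hp y hz, hψ1]
    rw [fr, ← hψ, hr1 _ (hM h4) h4, ψ.right_inv hz]
  rw [h1.fderiv_eq, fderiv_fun_id]
  have : (ContinuousLinearMap.id ℝ H).det = 1 := LinearMap.det_id
  rw [this]
  exact one_pos

/-- a submersion with connected fibres is proper near a compact fibre -/
theorem proper_of_connected {p : E → V} (hp : ∀ x, ∀ y ∈ (chartAt (V × H) x).source,
    (chartAt (V × H) x y).1 = p y) {t0 : V} (hM : IsCompact (p ⁻¹' {t0}))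
    (hne : (p ⁻¹' {t0}).Nonempty) (hcon : ∀ t, IsPreconnected (p ⁻¹' {t})) {O : Set E}
    (hO : IsOpen O) (hMO : p ⁻¹' {t0} ⊆ O) : ∀ᶠ t in 𝓝 t0, p ⁻¹' {t} ⊆ O := by
  have : LocallyCompactSpace E := ChartedSpace.locallyCompactSpace (V × H) E
  have hpc : Continuous p := continuous_p hp
  obtain ⟨K, hK, hMK, hKO⟩ := exists_compact_between hM hO hMO
  have hB : IsCompact (K ∩ (interior K)ᶜ) := hK.inter_right isOpen_interior.isClosed_compl
  have h1 : ∀ᶠ t in 𝓝 t0, t ∉ p '' (K ∩ (interior K)ᶜ) := by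
    refine (hB.image hpc).isClosed.isOpen_compl.mem_nhds ?_
    rintro ⟨y, ⟨-, hy⟩, hy0⟩
    exact hy (hMK hy0)
  obtain ⟨m, hm⟩ := hne
  have hm0 : p m = t0 := hm
  have h2 := exists_near hp m (isOpen_interior.mem_nhds (hMK hm))
  rw [hm0] at h2
  filter_upwards [h1, h2] with t ht ht'
  obtain ⟨y0, hy0, hy0'⟩ := ht'
  intro y hy
  by_contra hyO
  have hyK : y ∉ K := fun h => hyO (hKO h)
  obtain ⟨z, hz, hz1, hz2⟩ := hcon t (interior K) Kᶜ isOpen_interior hK.isClosed.isOpen_compl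
    (by
      intro z hz
      by_cases hzK : z ∈ K
      · left
        by_contra hzi
        exact ht ⟨z, ⟨hzK, hzi⟩, hz⟩
      · right
        exact hzK) ⟨y0, hy0', hy0⟩ ⟨y, hy, hyK⟩
  exact hz2 (interior_subset hz1)

/-- **Smooth trivialisation** near a compact connected fibre (Ehresmann). -/
theorem exists_triv {p : E → V} (hp : ∀ x, ∀ y ∈ (chartAt (V × H) x).source,
    (chartAt (V × H) x y).1 = p y) {t0 : V} (hM : IsCompact (p ⁻¹' {t0}))
    (hc : IsConnected (p ⁻¹' {t0}))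
    (hprop : ∀ O, IsOpen O → p ⁻¹' {t0} ⊆ O → ∀ᶠ t in 𝓝 t0, p ⁻¹' {t} ⊆ O) :
    ∃ (N : Set V) (r : E → E) (Φ : V → E → E), IsOpen N ∧ t0 ∈ N ∧
      (∀ t ∈ N, ∀ m, p m = t0 → p (Φ t m) = t ∧ r (Φ t m) = m) ∧
      (∀ t ∈ N, ∀ y, p y = t → p (r y) = t0 ∧ Φ t (r y) = y) ∧
      (∀ m, p m = t0 → Φ t0 m = m) ∧
      (∀ y, p y ∈ N → ContMDiffAt 𝓘(ℝ, V × H) 𝓘(ℝ, V × H) ∞ r y) ∧
      (∀ t ∈ N, ∀ m, p m = t0 → ∀ x, m ∈ (chartAt (V × H) x).source →
        ContMDiffAt 𝓘(ℝ, V × H) 𝓘(ℝ, V × H) ∞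
          (fun q : V × H => Φ q.1 ((chartAt (V × H) x).symm (t0, q.2)))
          (t, (chartAt (V × H) x m).2)) ∧
      (∀ t ∈ N, ∀ m, p m = t0 → ∃ x, m ∈ (chartAt (V × H) x).source ∧
        Φ t m ∈ (chartAt (V × H) x).source ∧
        0 < (fderiv ℝ (fun w => (chartAt (V × H) x (Φ t ((chartAt (V × H) x).symm (t0, w)))).2)
          (chartAt (V × H) x m).2).det) := by
  classical
  obtain ⟨O, r, hO, hMO, hr, hr0, hr1⟩ := good_fibre hp hM
  have : LocallyCompactSpace E := ChartedSpace.locallyCompactSpace (V × H) E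
  have hpc : Continuous p := continuous_p hp
  -- local injectivity
  have hloc : ∀ y ∈ Reg (V := V) H O r, ∃ W ∈ 𝓝 y, ∀ a ∈ W, ∀ b ∈ W, p a = p b → r a = r b →
      a = b := by
    rintro y ⟨x, hyO, hy, hry, hd⟩
    set ψ := chartAt (V × H) x with hψ
    obtain ⟨G, -, -, -, U, hU, hU2⟩ := loc_inv (fr_smooth (hr y hyO) hy hry) hd.ne'
    refine ⟨ψ.source ∩ ψ ⁻¹' U, inter_mem (ψ.open_source.mem_nhds hy)
      ((ψ.continuousAt hy).preimage_mem_nhds hU), ?_⟩
    rintro a ⟨ha, ha'⟩ b ⟨hb, hb'⟩ h1 h2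
    have h3 : ψ a = ψ b := by
      refine hU2 _ ha' _ hb' ?_ ?_
      · rw [hp x a ha, hp x b hb, h1]
      · rw [fr, fr, ← hψ, ψ.left_inv ha, ψ.left_inv hb, h2]
    exact ψ.injOn ha hb h3
  -- injectivity on nearby fibres
  set 𝒰 : Set (E × E) := interior {c : E × E | p c.1 = p c.2 → r c.1 = r c.2 → c.1 = c.2} with h𝒰
  have hMM : (p ⁻¹' {t0}) ×ˢ (p ⁻¹' {t0}) ⊆ 𝒰 := by
    rintro ⟨a, b⟩ ⟨ha, hb⟩
    have ha0 : p a = t0 := ha
    have hb0 : p b = t0 := hb
    rw [h𝒰, mem_interior_iff_mem_nhds]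
    by_cases hab : a = b
    · subst hab
      obtain ⟨W, hW, hW2⟩ := hloc a (subset_reg hp hMO hr1 ha)
      refine mem_of_superset (prod_mem_nhds hW hW) ?_
      rintro ⟨c, d⟩ ⟨hc, hd⟩
      exact hW2 c hc d hd
    · obtain ⟨U1, U2, hU1, hU2, h1, h2, h3⟩ := t2_separation hab
      have hra : r a = a := hr1 a (hMO ha) ha0
      have hrb : r b = b := hr1 b (hMO hb) hb0
      have h4 : r ⁻¹' U1 ∈ 𝓝 a := (hr a (hMO ha)).continuousAt.preimage_mem_nhds
        (by rw [hra]; exact hU1.mem_nhds h1)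
      have h5 : r ⁻¹' U2 ∈ 𝓝 b := (hr b (hMO hb)).continuousAt.preimage_mem_nhds
        (by rw [hrb]; exact hU2.mem_nhds h2)
      refine mem_of_superset (prod_mem_nhds h4 h5) ?_
      rintro ⟨c, d⟩ ⟨hc, hd⟩ _ h6
      have hc' : r c ∈ U1 := hc
      have hd' : r d ∈ U2 := hd
      have h6' : r c = r d := h6
      rw [h6'] at hc'
      exact (disjoint_left.1 h3 hc' hd').elim
  obtain ⟨u, v, hu, hv, hMu, hMv, huv⟩ := generalized_tube_lemma hM hM isOpen_interior hMM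
  obtain ⟨Kc, hKc, hMK⟩ := exists_compact_superset hM
  -- the neighbourhood
  set O' : Set E := Reg (V := V) H O r ∩ u ∩ v ∩ interior Kc with hO'
  have hO'o : IsOpen O' := (((isOpen_reg hO hr).inter hu).inter hv).inter isOpen_interior
  have hMO' : p ⁻¹' {t0} ⊆ O' := fun y hy =>
    ⟨⟨⟨subset_reg hp hMO hr1 hy, hMu hy⟩, hMv hy⟩, hMK hy⟩
  have hne : ∀ᶠ t in 𝓝 t0, ∃ y, p y = t := by
    obtain ⟨m, hm⟩ := hc.nonempty
    have hm0 : p m = t0 := hm
    have := exists_near hp m (U := univ) univ_mem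
    rw [hm0] at this
    filter_upwards [this] with t ht
    obtain ⟨y, -, hy⟩ := ht
    exact ⟨y, hy⟩
  obtain ⟨N, hN, hNo, htN⟩ := _root_.eventually_nhds_iff.1 ((hprop O' hO'o hMO').and hne)
  have hNO : ∀ y, p y ∈ N → y ∈ O' := fun y hy => (hN _ hy).1 rfl
  have hNR : ∀ y, p y ∈ N → y ∈ Reg (V := V) H O r := fun y hy => (hNO y hy).1.1.1
  have hNOO : ∀ y, p y ∈ N → y ∈ O := fun y hy => by
    obtain ⟨x, h, -⟩ := hNR y hy
    exact h
  have hinj : ∀ a b, p a ∈ N → p a = p b → r a = r b → a = b := by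
    intro a b ha hab h
    have hb : p b ∈ N := by rw [← hab]; exact ha
    exact (interior_subset (huv (⟨(hNO a ha).1.1.2, (hNO b hb).1.2⟩ : (a, b) ∈ u ×ˢ v))) hab h
  -- surjectivity
  have hsurj : ∀ t ∈ N, ∀ m, p m = t0 → ∃ y, p y = t ∧ r y = m := by
    intro t ht
    have hFt : IsCompact (p ⁻¹' {t}) := by
      refine hKc.of_isClosed_subset (isClosed_singleton.preimage hpc) ?_
      intro y hy
      have hy' : p y = t := hy
      exact interior_subset (hNO y (by rw [hy']; exact ht)).2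
    set S : Set E := r '' (p ⁻¹' {t}) with hS
    have hScl : IsClosed S := by
      refine (hFt.image_of_continuousOn ?_).isClosed
      intro y hy
      have hy' : p y = t := hy
      exact (hr y (hNOO y (by rw [hy']; exact ht))).continuousAt.continuousWithinAt
    have hop : ∀ m ∈ S, ∃ W : Set E, IsOpen W ∧ m ∈ W ∧ ∀ m' ∈ W, p m' = t0 → m' ∈ S := by
      rintro _ ⟨y, hy, rfl⟩
      have hy' : p y = t := hy
      obtain ⟨x, hyO, hys, hry, hd⟩ := hNR y (by rw [hy']; exact ht)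
      obtain ⟨σ, hσ1, hσ2, hσ3, -⟩ := local_section hp hO hr hr0 hyO hys hry hd
      set ψ := chartAt (V × H) x with hψ
      have h1 : ContinuousAt (fun m' => (p y, (ψ m').2)) (r y) :=
        continuousAt_const.prodMk (continuous_snd.continuousAt.comp (ψ.continuousAt hry))
      have h2 : ∀ᶠ m' in 𝓝 (r y), p (σ (p y, (ψ m').2)) = p y ∧
          r (σ (p y, (ψ m').2)) = ψ.symm (t0, (ψ m').2) := h1.eventually hσ3
      obtain ⟨W, hW, hWo, hyW⟩ := _root_.eventually_nhds_iff.1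
        (h2.and (ψ.open_source.mem_nhds hry))
      refine ⟨W, hWo, hyW, ?_⟩
      intro m' hm' hm0
      obtain ⟨⟨h3, h4⟩, h5⟩ := hW m' hm'
      refine ⟨σ (p y, (ψ m').2), ?_, ?_⟩
      · change p _ = t
        rw [h3, hy']
      · rw [h4]
        have : (t0, (ψ m').2) = ψ m' := Prod.ext (by rw [hp x m' h5, hm0]) rfl
        rw [this, ψ.left_inv h5]
    choose! W hW1 hW2 hW3 using hop
    have hSM : S ⊆ p ⁻¹' {t0} := by
      rintro _ ⟨y, hy, rfl⟩
      have hy' : p y = t := hy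
      exact hr0 y (hNOO y (by rw [hy']; exact ht))
    have hMS : p ⁻¹' {t0} ⊆ S := by
      by_contra hcon
      obtain ⟨m1, hm1, hm1'⟩ := not_subset.1 hcon
      have hpc' := hc.isPreconnected (⋃ m ∈ S, W m) Sᶜ
        (isOpen_biUnion fun m hm => hW1 m hm) hScl.isOpen_compl ?_ ?_ ⟨m1, hm1, hm1'⟩
      · obtain ⟨m, hm, hm2, hm3⟩ := hpc'
        simp only [mem_iUnion] at hm2
        obtain ⟨m', hm', hmW⟩ := hm2
        exact hm3 (hW3 m' hm' m hmW hm)
      · intro m hm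
        by_cases hmS : m ∈ S
        · left
          exact mem_biUnion hmS (hW2 m hmS)
        · right
          exact hmS
      · obtain ⟨y, hy⟩ := (hN t ht).2
        have hyS : r y ∈ S := ⟨y, hy, rfl⟩
        exact ⟨r y, hSM hyS, mem_biUnion hyS (hW2 _ hyS)⟩
    intro m hm
    obtain ⟨y, hy, hy'⟩ := hMS hm
    exact ⟨y, hy, hy'⟩
  choose! Φ hΦ using hsurj
  have hΦr : ∀ t ∈ N, ∀ y, p y = t → Φ t (r y) = y := by
    intro t ht y hy
    have h1 : p (r y) = t0 := hr0 y (hNOO y (by rw [hy]; exact ht))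
    obtain ⟨h2, h3⟩ := hΦ t ht (r y) h1
    exact hinj _ _ (by rw [h2]; exact ht) (by rw [h2, hy]) h3
  -- local formula for `Φ`
  have hkey : ∀ t ∈ N, ∀ m, p m = t0 → ∃ x, m ∈ (chartAt (V × H) x).source ∧
      Φ t m ∈ (chartAt (V × H) x).source ∧ ∃ σ : V × H → E,
      ContMDiffAt 𝓘(ℝ, V × H) 𝓘(ℝ, V × H) ∞ σ (t, (chartAt (V × H) x m).2) ∧
      (∀ᶠ q in 𝓝 (t, (chartAt (V × H) x m).2),
        Φ q.1 ((chartAt (V × H) x).symm (t0, q.2)) = σ q) ∧
      0 < (fderiv ℝ (fun w => (chartAt (V × H) x (σ (t, w))).2)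
        (chartAt (V × H) x m).2).det := by
    intro t ht m hm
    obtain ⟨h1, h2⟩ := hΦ t ht m hm
    obtain ⟨x, hyO, hys, hry, hd⟩ := hNR (Φ t m) (by rw [h1]; exact ht)
    obtain ⟨σ, hσ1, hσ2, hσ3, hσ4⟩ := local_section hp hO hr hr0 hyO hys hry hd
    rw [h1, h2] at hσ1 hσ2 hσ3 hσ4
    rw [h2] at hry
    refine ⟨x, hry, hys, σ, hσ1, ?_, hσ4⟩
    have h3 : ∀ᶠ q : V × H in 𝓝 (t, (chartAt (V × H) x m).2), q.1 ∈ N :=
      continuous_fst.continuousAt (hNo.mem_nhds ht)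
    filter_upwards [hσ3, h3] with q hq hqN
    rw [← hq.2]
    exact hΦr q.1 hqN _ hq.1
  refine ⟨N, r, Φ, hNo, htN, hΦ, ?_, ?_, ?_, ?_, ?_⟩
  · intro t ht y hy
    exact ⟨hr0 y (hNOO y (by rw [hy]; exact ht)), hΦr t ht y hy⟩
  · intro m hm
    have h1 : r m = m := hr1 m (hMO hm) hm
    have h2 := hΦr t0 htN m hm
    rwa [h1] at h2
  · intro y hy
    exact hr y (hNOO y hy)
  · intro t ht m hm x' hx'
    obtain ⟨x, hx1, hx2, σ, hσ1, hσ2, -⟩ := hkey t ht m hm
    set ψ := chartAt (V × H) x with hψ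
    set ψ' := chartAt (V × H) x' with hψ'
    have hmax : ψ ∈ IsManifold.maximalAtlas 𝓘(ℝ, V × H) ∞ E := IsManifold.chart_mem_maximalAtlas x
    have hmax' : ψ' ∈ IsManifold.maximalAtlas 𝓘(ℝ, V × H) ∞ E :=
      IsManifold.chart_mem_maximalAtlas x'
    have hm' : ((t0, (ψ' m).2) : V × H) = ψ' m := Prod.ext (by rw [hp x' m hx', hm]) rfl
    -- the transition on the fibre
    set k : V × H → V × H := fun q => (q.1, (ψ (ψ'.symm (t0, q.2))).2) with hk
    have hk0 : k (t, (ψ' m).2) = (t, (ψ m).2) := by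
      simp only [hk]
      rw [hm', ψ'.left_inv hx']
    have hι : ContMDiffAt 𝓘(ℝ, V × H) 𝓘(ℝ, V × H) ∞ (fun q : V × H => ((t0, q.2) : V × H))
        (t, (ψ' m).2) :=
      (contDiffAt_const.prodMk contDiffAt_snd).contMDiffAt
    have hks : ContMDiffAt 𝓘(ℝ, V × H) 𝓘(ℝ, V × H) ∞ (fun q : V × H => ψ'.symm (t0, q.2))
        (t, (ψ' m).2) := by
      refine ContMDiffAt.comp (g := ψ'.symm) _ ?_ hι
      change ContMDiffAt 𝓘(ℝ, V × H) 𝓘(ℝ, V × H) ∞ ψ'.symm (t0, (ψ' m).2)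
      rw [hm']
      exact contMDiffAt_symm_of_mem_maximalAtlas hmax' (ψ'.map_source hx')
    have hm2 : ψ'.symm (t0, (ψ' m).2) = m := by rw [hm', ψ'.left_inv hx']
    have hk1 : ContMDiffAt 𝓘(ℝ, V × H) 𝓘(ℝ, V × H) ∞ (fun q : V × H => ψ (ψ'.symm (t0, q.2)))
        (t, (ψ' m).2) := by
      refine ContMDiffAt.comp (g := ψ) _ ?_ hks
      change ContMDiffAt 𝓘(ℝ, V × H) 𝓘(ℝ, V × H) ∞ ψ (ψ'.symm (t0, (ψ' m).2))
      rw [hm2]
      exact contMDiffAt_of_mem_maximalAtlas hmax hx1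
    have hk2 : ContMDiffAt 𝓘(ℝ, V × H) 𝓘(ℝ, V × H) ∞ k (t, (ψ' m).2) := by
      have h1 : ContMDiffAt 𝓘(ℝ, V × H) 𝓘(ℝ, H) ∞
          (fun q : V × H => (ψ (ψ'.symm (t0, q.2))).2) (t, (ψ' m).2) :=
        ContMDiffAt.comp (g := fun q : V × H => q.2) (I' := 𝓘(ℝ, V × H)) _
          (contDiff_snd.contMDiff.contMDiffAt) hk1
      exact (contDiffAt_fst.contMDiffAt).prodMk_space h1
    have hfin : ContMDiffAt 𝓘(ℝ, V × H) 𝓘(ℝ, V × H) ∞ (fun q => σ (k q)) (t, (ψ' m).2) := by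
      refine ContMDiffAt.comp (g := σ) _ ?_ hk2
      rw [hk0]
      exact hσ1
    refine hfin.congr_of_eventuallyEq ?_
    have h1 : ∀ᶠ q in 𝓝 (t, (ψ' m).2), Φ (k q).1 (ψ.symm (t0, (k q).2)) = σ (k q) := by
      have : ContinuousAt k (t, (ψ' m).2) := hk2.continuousAt
      refine this.eventually (p := fun q => Φ q.1 (ψ.symm (t0, q.2)) = σ q) ?_
      rw [hk0]
      exact hσ2
    have h2 : ∀ᶠ q : V × H in 𝓝 (t, (ψ' m).2), ψ'.symm (t0, q.2) ∈ ψ.source ∧
        ((t0, q.2) : V × H) ∈ ψ'.target := by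
      have g1 : ∀ᶠ q : V × H in 𝓝 (t, (ψ' m).2), ψ'.symm (t0, q.2) ∈ ψ.source := by
        refine hks.continuousAt (ψ.open_source.mem_nhds ?_)
        rw [hm2]
        exact hx1
      have g2 : ∀ᶠ q : V × H in 𝓝 (t, (ψ' m).2), ((t0, q.2) : V × H) ∈ ψ'.target := by
        refine hι.continuousAt (ψ'.open_target.mem_nhds ?_)
        change ((t0, (ψ' m).2) : V × H) ∈ ψ'.target
        rw [hm']
        exact ψ'.map_source hx'
      exact g1.and g2
    filter_upwards [h1, h2] with q g1 g2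
    rw [← g1]
    congr 1
    have g3 : p (ψ'.symm (t0, q.2)) = t0 := fst_symm hp x' g2.2
    have g4 : ((t0, (ψ (ψ'.symm (t0, q.2))).2) : V × H) = ψ (ψ'.symm (t0, q.2)) :=
      Prod.ext (by rw [hp x _ g2.1, g3]) rfl
    simp only [hk]
    rw [g4, ψ.left_inv g2.1]
  · intro t ht m hm
    obtain ⟨x, hx1, hx2, σ, hσ1, hσ2, hσ3⟩ := hkey t ht m hm
    refine ⟨x, hx1, hx2, ?_⟩
    have h1 : (fun w => (chartAt (V × H) x (Φ t ((chartAt (V × H) x).symm (t0, w)))).2)
        =ᶠ[𝓝 (chartAt (V × H) x m).2] fun w => (chartAt (V × H) x (σ (t, w))).2 := by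
      have h2 : ContinuousAt (fun w : H => (t, w)) (chartAt (V × H) x m).2 :=
        continuousAt_const.prodMk continuousAt_id
      filter_upwards [h2.eventually hσ2] with w hw
      rw [hw]
    rw [h1.fderiv_eq]
    exact hσ3

end Vale.Agent.P290.H470.Retr
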